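import Mathlib.Data.Set.Basic
import Mathlib.Data.List.Basic
import Mathlib.Data.ZMod.Basic

namespace Vale.Agent.P329.LookZ

/-- There is a mark at the position `x` of `w`: the window of length `m` at `x` belongs to `U`. -/
def Mark {α : Type} (U : Set (List α)) (m : ℕ) (w : List α) (x : ℕ) : Prop :=
  x + m ≤ w.length ∧ (w.drop x).take m ∈ U

/-- There is a boundary at the beginning of `s`: a mark such that none of the next `T` positions
is a mark (and `s` is long enough to show this). -/
def Bdy {α : Type} (U : Set (List α)) (m T : ℕ) (s : List α) : Prop :=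
  m + T ≤ s.length ∧ Mark U m s 0 ∧ ∀ p, 0 < p → p ≤ T → ¬ Mark U m s p

/-- put a letter in front of the first word -/
def bump {α : Type} (a : α) : List (List α) → List (List α)
  | [] => []
  | v :: l => (a :: v) :: l

open Classical in
/-- The zones of a word: for every boundary, from left to right, the factor which starts at the
previous boundary (for the first one: at the beginning of the word) and ends with the window of
length `m + T` at this boundary. -/
noncomputable def zones {α : Type} (U : Set (List α)) (m T : ℕ) : List α → List (List α)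
  | [] => []
  | a :: w => (if Bdy U m T (a :: w) then [(a :: w).take (m + T)] else []) ++
      bump a (zones U m T w)

/-- the type word of a row of zones: the colours `c₁`, `c₂` and the lengths modulo `P` -/
def typ {α ι κ : Type} (c₁ : List α → ι) (c₂ : List α → κ) (P : ℕ) (L : List (List α)) :
    List (ι × κ × ZMod P) :=
  L.map fun v => (c₁ v, c₂ v, (v.length : ZMod P))

/-- a possible beginning of a zone: it starts with a mark, which is its only mark, and it is long
enough -/
def Lft {α : Type} (U : Set (List α)) (m T : ℕ) (x : List α) : Prop :=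
  m + T ≤ x.length ∧ Mark U m x 0 ∧ ∀ p, 0 < p → ¬ Mark U m x p

/-- a possible end of a zone: there is a mark at a distance at most `N` -/
def Rgt {α : Type} (U : Set (List α)) (m N : ℕ) (y : List α) : Prop :=
  ∃ q, q ≤ N ∧ Mark U m y q

/-- The zone `v` is plain: its first mark is followed by a gap (no marks) of length `N + T + m`,
and if `v` is cut into a beginning `x` and an end `y`, then the first colour does not change if
the end is changed, and the second colour does not change if the beginning is changed. -/
def Plain {α ι κ : Type} (U : Set (List α)) (m T : ℕ) (c₁ : List α → ι) (c₂ : List α → κ)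
    (N : ℕ) (v : List α) : Prop :=
  (∀ p, 0 < p → p < N + T + m → ¬ Mark U m v p) ∧
  ∀ x y : List α, v = x ++ y → Lft U m T x → Rgt U m N y →
    (∀ y', Rgt U m N y' → c₁ (x ++ y') = c₁ v) ∧ (∀ x', Lft U m T x' → c₂ (x' ++ y) = c₂ v)

/-- A boundary is big if the types of the next `W` zones, which start the type word `t`, satisfy
`Φ`. -/
def Big {Θ : Type} (W : ℕ) (Φ : List Θ → Prop) (t : List Θ) : Prop :=
  W ≤ t.length ∧ Φ (t.take W)

/-- Good words: they have a big boundary, later a row `B` of `K` consecutive plain zones without a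
big boundary strictly inside, and later again a big boundary. -/
def Good {α ι κ : Type} (U : Set (List α)) (m T : ℕ) (c₁ : List α → ι) (c₂ : List α → κ)
    (P W : ℕ) (Φ : List (ι × κ × ZMod P) → Prop) (K N : ℕ) (g : List α) : Prop :=
  ∃ A₁ A₂ B D₁ D₂ : List (List α), zones U m T g = (A₁ ++ A₂) ++ (B ++ (D₁ ++ D₂)) ∧
    A₁ ≠ [] ∧ Big W Φ (typ c₁ c₂ P A₂) ∧ Big W Φ (typ c₁ c₂ P D₂) ∧ B.length = K ∧
    (∀ v ∈ B, Plain U m T c₁ c₂ N v) ∧
    ∀ B₁ B₂ : List (List α), B = B₁ ++ B₂ → B₁ ≠ [] → B₂ ≠ [] →
      ¬ Big W Φ (typ c₁ c₂ P (B₂ ++ (D₁ ++ D₂)))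

/-- `x` has a period at most `k`. -/
def Per {Θ : Type} (k : ℕ) (x : List Θ) : Prop :=
  ∃ d, 0 < d ∧ d ≤ k ∧ ∀ i, i + d < x.length → x[i]? = x[i + d]?

/-- `x` is a product of at most `N` words which have a period at most `k`. -/
def Simple {Θ : Type} (k N : ℕ) (x : List Θ) : Prop :=
  ∃ l : List (List Θ), l.length ≤ N ∧ l.flatten = x ∧ ∀ y ∈ l, Per k y

/-- Rich words: they have a row `B₁` of consecutive zones whose type word is not a product of `N`
words with a period at most `k`, later `2 * k` consecutive plain zones, and later again such a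
row `B₃`. -/
def Rich {α ι κ : Type} (U : Set (List α)) (m T : ℕ) (c₁ : List α → ι) (c₂ : List α → κ)
    (P k N : ℕ) (g : List α) : Prop :=
  ∃ A B₁ E₁ B₂ E₂ B₃ D : List (List α),
    zones U m T g = A ++ (B₁ ++ (E₁ ++ (B₂ ++ (E₂ ++ (B₃ ++ D))))) ∧ A ≠ [] ∧
    ¬ Simple k N (typ c₁ c₂ P B₁) ∧ ¬ Simple k N (typ c₁ c₂ P B₃) ∧ B₂.length = 2 * k ∧
    ∀ v ∈ B₂, Plain U m T c₁ c₂ N v

end Vale.Agent.P329.LookZ
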