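import Vale.Agent.P329.H616.LookZ.Win
import Vale.Agent.P329.H616.LookZ.Period

set_option linter.all false

/-!
One kind of marks.
-/

namespace Vale.Agent.P329.LookZ

section types

variable {α ι κ : Type} (c₁ : List α → ι) (c₂ : List α → κ) (P : ℕ)

theorem typ_append (L L' : List (List α)) :
    typ c₁ c₂ P (L ++ L') = typ c₁ c₂ P L ++ typ c₁ c₂ P L' := List.map_append

theorem typ_length (L : List (List α)) : (typ c₁ c₂ P L).length = L.length :=
  List.length_map _

theorem typ_drop (n : ℕ) (L : List (List α)) :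
    typ c₁ c₂ P (L.drop n) = (typ c₁ c₂ P L).drop n := List.map_drop

end types

section main

variable {Θ : Type} {k : ℕ} {idx : List Θ → ℕ}

theorem s_add {J : ℕ} {s : ℕ → ℕ} (h : ∀ j, j + 1 < J → s j < s (j + 1)) (j : ℕ) : ∀ i : ℕ,
    j + i < J → s j + i ≤ s (j + i) := by
  intro i
  induction i with
  | zero => intro _; exact le_rfl
  | succ i ih =>
    intro hi
    have h1 := ih (by omega)
    have h2 := h (j + i) (by omega)
    rw [show j + (i + 1) = j + i + 1 by omega] at *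
    omega

theorem big_iff (t : List Θ) : Big (4 * k + 1) (TR k idx) t ↔ BG k idx t 0 := TR_iff

theorem exists_BG (hk : 0 < k) {r : ℕ} (hr : ∀ l, idx l ≤ r)
    (hinj : ∀ l l' : List Θ, l.length = 2 * k + 1 → l'.length = 2 * k + 1 →
      idx l = idx l' → l = l') {x : List Θ}
    (hx : ¬ Simple k (3 * (2 * (k * r + 2 * k + 2) + 1)) x) : ∃ p, BG k idx x p := by
  obtain ⟨R, hR⟩ : ∃ R, R = k * r + 2 * k + 2 := ⟨_, rfl⟩
  rw [← hR] at hx
  obtain ⟨s, hs1, hs2⟩ := many hk (2 * R + 1) x hx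
  have a1 := s_add hs1 0 R (by omega)
  have a2 := s_add hs1 (0 + R) R (by omega)
  have b2 := (hs2 (0 + R + R) (by omega)).1
  obtain ⟨p, hp, -⟩ := BG_near hinj r (s (0 + R)) (hr _) (hs2 _ (by omega)) (by omega)
    (by omega)
  exact ⟨p, hp⟩

variable {α ι κ : Type}

theorem rich_good {U : Set (List α)} {m T : ℕ} {c₁ : List α → ι} {c₂ : List α → κ} {P N r : ℕ}
    (hk : 0 < k) {idx : List (ι × κ × ZMod P) → ℕ} (hr : ∀ l, idx l ≤ r)
    (hinj : ∀ l l' : List (ι × κ × ZMod P), l.length = 2 * k + 1 → l'.length = 2 * k + 1 →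
      idx l = idx l' → l = l') {N' : ℕ}
    (hN : 3 * (2 * (k * r + 2 * k + 2) + 1) ≤ N) {g : List α}
    (hg : Rich U m T c₁ c₂ P k N g) (hpl : ∀ v, Plain U m T c₁ c₂ N v → Plain U m T c₁ c₂ N' v) :
    Good U m T c₁ c₂ P (4 * k + 1) (TR k idx) k N' g := by
  obtain ⟨A, B1, E1, B2, E2, B3, D, hZ, hA, hS1, hS3, hB2, hplain⟩ := hg
  obtain ⟨p1, hp1⟩ := exists_BG hk hr hinj fun h => hS1 (h.mono hN)
  obtain ⟨p3, hp3⟩ := exists_BG hk hr hinj fun h => hS3 (h.mono hN)
  have hl1 := hp1.1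
  have hl3 := hp3.1
  rw [typ_length] at hl1 hl3
  -- the types after the beginning of the row of plain zones
  obtain ⟨y, hy⟩ : ∃ y, y = typ c₁ c₂ P (B2 ++ (E2 ++ (B3 ++ D))) := ⟨_, rfl⟩
  have hyl : 2 * k ≤ y.length := by
    rw [hy, typ_length, List.length_append]; omega
  have key : ∀ b, b ≤ 2 * k → (Big (4 * k + 1) (TR k idx)
      (typ c₁ c₂ P (B2.drop b ++ (E2 ++ (B3 ++ D)))) ↔ BG k idx y b) := by
    intro b hb
    have h1 : B2.drop b ++ (E2 ++ (B3 ++ D)) = (B2 ++ (E2 ++ (B3 ++ D))).drop b := by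
      rw [List.drop_append_of_le_length (by omega)]
    rw [big_iff, h1, typ_drop, ← hy, BG_drop (by omega), Nat.add_zero]
  -- a subrow without big marks
  obtain ⟨b, hb, hno⟩ : ∃ b, b ≤ k ∧ ∀ i, b < i → i < b + k → ¬ BG k idx y i := by
    by_cases h : ∃ i, 0 < i ∧ i < k ∧ BG k idx y i
    · obtain ⟨i, h1, h2, h3⟩ := h
      refine ⟨i, h2.le, fun j h4 h5 h6 => ?_⟩
      refine BG_spacing h3 (d := j - i) ?_ (by omega) (by omega)
      rwa [show i + (j - i) = j by omega]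
    · push Not at h
      exact ⟨0, Nat.zero_le _, fun i h1 h2 => h i h1 (by omega)⟩
  obtain ⟨C, hC⟩ : ∃ C, C = (B2.drop b).take k := ⟨_, rfl⟩
  have hCl : C.length = k := by rw [hC, List.length_take, List.length_drop]; omega
  have hsplit : B2 = B2.take b ++ (C ++ B2.drop (b + k)) := by
    rw [hC, ← List.drop_drop, List.take_append_drop, List.take_append_drop]
  refine ⟨A ++ B1.take p1, B1.drop p1 ++ (E1 ++ B2.take b), C,
    B2.drop (b + k) ++ (E2 ++ B3.take p3), B3.drop p3 ++ D, ?_, ?_, ?_, ?_, hCl, ?_, ?_⟩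
  · rw [hZ]
    conv_lhs => rw [← List.take_append_drop p1 B1, ← List.take_append_drop p3 B3, hsplit]
    simp only [List.append_assoc]
  · intro h
    rw [List.append_eq_nil_iff] at h
    exact hA h.1
  · rw [big_iff, typ_append, BG_append, typ_drop, BG_drop (by rw [typ_length]; omega),
      Nat.add_zero]
    · exact hp1
    · rw [typ_length, List.length_drop]; omega
  · rw [big_iff, typ_append, BG_append, typ_drop, BG_drop (by rw [typ_length]; omega),
      Nat.add_zero]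
    · exact hp3
    · rw [typ_length, List.length_drop]; omega
  · intro v hv
    refine hpl v (hplain v ?_)
    rw [hC] at hv
    exact List.mem_of_mem_drop (List.mem_of_mem_take hv)
  · intro C1 C2 hC12 h1 h2 h3
    have h4 : C1.length + C2.length = k := by
      rw [← List.length_append, ← hC12, hCl]
    have h5 : 0 < C1.length := List.length_pos_iff.2 h1
    have h6 : 0 < C2.length := List.length_pos_iff.2 h2
    have h7 : C2 ++ ((B2.drop (b + k) ++ (E2 ++ B3.take p3)) ++ (B3.drop p3 ++ D)) =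
        B2.drop (b + C1.length) ++ (E2 ++ (B3 ++ D)) := by
      have h8 : B2.drop b = C1 ++ (C2 ++ B2.drop (b + k)) := by
        rw [← List.append_assoc, ← hC12, hC, ← List.drop_drop, List.take_append_drop]
      have h9 : B2.drop (b + C1.length) = C2 ++ B2.drop (b + k) := by
        rw [← List.drop_drop (i := C1.length), h8, List.drop_left]
      rw [h9]
      conv_rhs => rw [← List.take_append_drop p3 B3]
      simp only [List.append_assoc]
    rw [h7, key _ (by omega)] at h3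
    exact hno _ (by omega) (by omega) h3

theorem Plain.mono {U : Set (List α)} {m T : ℕ} {c₁ : List α → ι} {c₂ : List α → κ} {N N' : ℕ}
    (h : N' ≤ N) {v : List α} (hv : Plain U m T c₁ c₂ N v) : Plain U m T c₁ c₂ N' v := by
  obtain ⟨h1, h2⟩ := hv
  refine ⟨fun p h3 h4 => h1 p h3 (by omega), fun x y hxy hx hy => ?_⟩
  obtain ⟨q, hq, hM⟩ := hy
  obtain ⟨e1, e2⟩ := h2 x y hxy hx ⟨q, hq.trans h, hM⟩
  refine ⟨fun y' hy' => ?_, e2⟩
  obtain ⟨q', hq', hM'⟩ := hy'
  exact e1 y' ⟨q', hq'.trans h, hM'⟩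

/-- one kind of marks -/
theorem regular_rich (n : ℕ) : ∃ k : ℕ, 0 < k ∧
    ∀ (ι κ : Type) [Finite ι] [Finite κ] (P : ℕ), 0 < P → ∃ N : ℕ, 0 < N ∧
      ∀ (α : Type) [Finite α] (Q : Set (List α) → Prop), Slow.Cls Q → ∀ (A : DFA α (Fin n))
        (U : Set (List α)) (m T : ℕ) (c₁ : List α → ι) (c₂ : List α → κ), 0 < m →
        (m = 1 ∨ N + m ≤ T) → ∀ C : ℕ, Q {w : List α | w ∈ A.accepts ∧
          Clock.Dom {g | Rich U m T c₁ c₂ P k N g} C w} := by
  obtain ⟨k, hk, H⟩ := regular_look n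
  refine ⟨k, hk, fun ι κ _ _ P hP => ?_⟩
  have : NeZero P := ⟨hP.ne'⟩
  obtain ⟨r, idx, hr, hinj⟩ := exists_idx (Θ := ι × κ × ZMod P) k
  obtain ⟨N, hN, H⟩ := H ι κ P (4 * k + 1) hP (Nat.succ_pos _)
  refine ⟨N + 3 * (2 * (k * r + 2 * k + 2) + 1), by omega,
    fun α _ Q hQ A U m T c₁ c₂ hm hT C => ?_⟩
  have h1 := H α Q hQ A U m T c₁ c₂ hm (hT.imp id fun h => by omega) (TR k idx) C
  have h2 := Clock.Cls.dom hQ {g : List α | Rich U m T c₁ c₂ P k
    (N + 3 * (2 * (k * r + 2 * k + 2) + 1)) g} C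
  have h3 := hQ.inter h2 h1
  convert h3 using 1
  ext w
  constructor
  · rintro ⟨hw, hD⟩
    refine ⟨hD, hw, fun u hu hl => ?_⟩
    obtain ⟨g, hg, hgu⟩ := hD u hu hl
    exact ⟨g, rich_good hk hr hinj (by omega) hg fun v hv => hv.mono (by omega), hgu⟩
  · rintro ⟨hD, hw, -⟩
    exact ⟨hw, hD⟩

end main

end Vale.Agent.P329.LookZ
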