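import Vale.Agent.P329.H616.LookZ.Serve
import Vale.Agent.P329.Clock.Cut

set_option linter.all false

/-!
Texts: boundaries, zones, and the cut system. A zone is kept as a pair: the zone word and the
window which shows the boundary at its end.
-/

namespace Vale.Agent.P329.LookZ

open Vale.Agent.P329 Vale.Agent.P329.Slow Vale.Agent.P329.Mark Vale.Agent.P329.Clock
open Vale.Agent.P329.TwoMarks (md big)

/-- boundaries: `B s` says that there is a boundary at the beginning of the suffix `s` -/
structure Bd (α : Type) where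
  B : List α → Prop
  n0 : ℕ
  pos : 0 < n0
  short : ∀ s, B s → n0 ≤ s.length
  loc : ∀ s s' : List α, n0 ≤ s.length → (B (s ++ s') ↔ B s)
  okL : List α → Prop
  okR : List α → Prop
  okL_app : ∀ u k : List α, okL k → okL (u ++ k)
  okR_app : ∀ k z : List α, okR k → okR (k ++ z)
  junc : ∀ u z : List α, okL u → okR z → ∀ v : List α, v <:+ u → v ≠ [] → (B (v ++ z) ↔ B v)

section act

variable {α V : Type} [AddCommGroup V] (M : α → V →+ V)

/-- the action of a word -/
def ah : List α → (V →+ V)
  | [] => AddMonoidHom.id V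
  | a :: w => (ah w).comp (M a)

theorem ah_apply (w : List α) : ∀ x : V, ah M w x = act M w x := by
  induction w with
  | nil => intro x; rfl
  | cons a w ih => intro x; exact ih (M a x)

theorem ah_append (u v : List α) : ah M (u ++ v) = (ah M v).comp (ah M u) := by
  induction u with
  | nil => rfl
  | cons a u ih =>
    show (ah M (u ++ v)).comp (M a) = _
    rw [ih]
    rfl

end act

section zones

variable {α : Type}

/-- put a word in front of the first zone -/
def mg (u : List α) : List (List α × List α) → List (List α × List α)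
  | [] => []
  | z :: l => (u ++ z.1, z.2) :: l

theorem mg_nil (L : List (List α × List α)) : mg [] L = L := by
  cases L with
  | nil => rfl
  | cons z l => rfl

theorem mg_mg (u v : List α) (L : List (List α × List α)) : mg u (mg v L) = mg (u ++ v) L := by
  cases L with
  | nil => rfl
  | cons z l =>
    show (u ++ (v ++ z.1), z.2) :: l = ((u ++ v) ++ z.1, z.2) :: l
    rw [List.append_assoc]

theorem mg_append (u : List α) {L : List (List α × List α)} (h : L ≠ [])
    (L' : List (List α × List α)) : mg u (L ++ L') = mg u L ++ L' := by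
  cases L with
  | nil => exact absurd rfl h
  | cons z l => rfl

theorem mg_ne (u : List α) {L : List (List α × List α)} (h : L ≠ []) : mg u L ≠ [] := by
  cases L with
  | nil => exact absurd rfl h
  | cons z l => exact List.cons_ne_nil _ _

theorem mg_eq_nil {u : List α} {L : List (List α × List α)} (h : mg u L = []) : L = [] := by
  by_contra h2
  exact mg_ne u h2 h

/-- the total length -/
def len : List (List α × List α) → ℕ
  | [] => 0
  | z :: l => z.1.length + len l

theorem len_append (L L' : List (List α × List α)) : len (L ++ L') = len L + len L' := by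
  induction L with
  | nil => simp [len]
  | cons z l ih =>
    show z.1.length + len (l ++ L') = z.1.length + len l + len L'
    rw [ih, add_assoc]

theorem len_mg (u : List α) {L : List (List α × List α)} (h : L ≠ []) :
    len (mg u L) = u.length + len L := by
  cases L with
  | nil => exact absurd rfl h
  | cons z l =>
    show (u ++ z.1).length + len l = u.length + (z.1.length + len l)
    rw [List.length_append, add_assoc]

variable (T : Bd α)

open Classical in
/-- the zone which ends at the beginning of `s` -/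
noncomputable def nw (s : List α) : List (List α × List α) :=
  if T.B s then [([], s.take T.n0)] else []

theorem nw_pos {s : List α} (h : T.B s) : nw T s = [([], s.take T.n0)] := if_pos h

theorem nw_neg {s : List α} (h : ¬ T.B s) : nw T s = [] := if_neg h

/-- the zones of a word -/
noncomputable def Z : List α → List (List α × List α)
  | [] => []
  | a :: w => nw T (a :: w) ++ mg [a] (Z w)

theorem Z_cons (a : α) (w : List α) : Z T (a :: w) = nw T (a :: w) ++ mg [a] (Z T w) := rfl

open Classical in
/-- the part of the word after the last boundary -/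
noncomputable def tl : List α → List α
  | [] => []
  | a :: w => if Z T w = [] then a :: w else tl w

theorem tl_pos {w : List α} (h : Z T w = []) (a : α) : tl T (a :: w) = a :: w := if_pos h

theorem tl_neg {w : List α} (h : Z T w ≠ []) (a : α) : tl T (a :: w) = tl T w := if_neg h

theorem Z_nil_of_cons {a : α} {w : List α} (h : Z T (a :: w) = []) : Z T w = [] := by
  rw [Z_cons, List.append_eq_nil_iff] at h
  exact mg_eq_nil h.2

theorem tl_of_nil {u : List α} (h : Z T u = []) : tl T u = u := by
  cases u with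
  | nil => rfl
  | cons a w => exact tl_pos T (Z_nil_of_cons T h) a

theorem Z_ne (u : List α) {z : List α} (h : Z T z ≠ []) : Z T (u ++ z) ≠ [] := by
  induction u with
  | nil => exact h
  | cons a u ih =>
    intro h2
    exact ih (Z_nil_of_cons T h2)

theorem tl_app (u : List α) {z : List α} (h : Z T z ≠ []) : tl T (u ++ z) = tl T z := by
  induction u with
  | nil => rfl
  | cons a u ih =>
    rw [List.cons_append, tl_neg T (Z_ne T u h), ih]

theorem nw_app {s : List α} (h : T.n0 ≤ s.length) (s' : List α) : nw T (s ++ s') = nw T s := by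
  by_cases hB : T.B s
  · rw [nw_pos T hB, nw_pos T ((T.loc s s' h).2 hB), List.take_append_of_le_length h]
  · rw [nw_neg T hB, nw_neg T (fun h2 => hB ((T.loc s s' h).1 h2))]

theorem nw_short {s : List α} (h : s.length < T.n0) : nw T s = [] :=
  nw_neg T fun h2 => absurd (T.short s h2) (by omega)

theorem Z_junc (z : List α) : ∀ u : List α,
    (∀ v : List α, v <:+ u → v ≠ [] → (T.B (v ++ z) ↔ T.B v)) →
      Z T (u ++ z) = Z T u ++ mg (tl T u) (Z T z) := by
  intro u
  induction u with
  | nil =>
    intro _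
    show Z T z = [] ++ mg [] (Z T z)
    rw [mg_nil]; rfl
  | cons a u ih =>
    intro h
    have h1 := ih fun v hv hne => h v (hv.trans (List.suffix_cons a u)) hne
    have h2 : nw T ((a :: u) ++ z) = nw T (a :: u) := by
      have h3 := h (a :: u) List.suffix_rfl (by simp)
      by_cases hB : T.B (a :: u)
      · rw [nw_pos T hB, nw_pos T (h3.2 hB), List.take_append_of_le_length (T.short _ hB)]
      · rw [nw_neg T hB, nw_neg T fun h4 => hB (h3.1 h4)]
    rw [List.cons_append, Z_cons, Z_cons, h1, ← List.cons_append, h2]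
    by_cases h4 : Z T u = []
    · rw [h4, tl_pos T h4, tl_of_nil T h4, List.nil_append, mg_mg, List.append_assoc]
      rfl
    · rw [tl_neg T h4, mg_append _ h4, List.append_assoc]

theorem Z_short {u : List α} (h : u.length < T.n0) : Z T u = [] := by
  induction u with
  | nil => rfl
  | cons a u ih =>
    rw [Z_cons, nw_short T h, ih (by rw [List.length_cons] at h; omega)]
    rfl

theorem Z_pre (u z : List α) : ∃ L', Z T (u ++ z) = Z T u ++ L' := by
  induction u with
  | nil => exact ⟨_, rfl⟩
  | cons a u ih =>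
    obtain ⟨L', hL'⟩ := ih
    by_cases h : (a :: u).length < T.n0
    · exact ⟨_, by rw [Z_short T h]; rfl⟩
    · rw [List.cons_append, Z_cons, Z_cons, ← List.cons_append, nw_app T (by omega), hL']
      by_cases h4 : Z T u = []
      · rw [h4]
        exact ⟨mg [a] L', by simp [mg]⟩
      · exact ⟨L', by rw [mg_append _ h4, List.append_assoc]⟩

theorem Z_suf (u : List α) {k : List α} {A R : List (List α × List α)} (h : Z T k = A ++ R)
    (hA : A ≠ []) : ∃ A', A' ≠ [] ∧ Z T (u ++ k) = A' ++ R := by
  induction u with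
  | nil => exact ⟨A, hA, h⟩
  | cons a u ih =>
    obtain ⟨A', hA', h2⟩ := ih
    refine ⟨nw T (a :: (u ++ k)) ++ mg [a] A', ?_, ?_⟩
    · intro h3
      rw [List.append_eq_nil_iff] at h3
      exact mg_ne [a] hA' h3.2
    · rw [List.cons_append, Z_cons, h2, mg_append _ hA', List.append_assoc]

theorem tl_len (w : List α) : (tl T w).length + len (Z T w) = w.length := by
  induction w with
  | nil => rfl
  | cons a w ih =>
    have h0 : len (nw T (a :: w)) = 0 := by
      by_cases hB : T.B (a :: w)
      · rw [nw_pos T hB]; rfl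
      · rw [nw_neg T hB]; rfl
    rw [Z_cons, len_append, h0, zero_add]
    by_cases h : Z T w = []
    · rw [h, tl_pos T h]; rfl
    · rw [tl_neg T h, len_mg _ h, List.length_cons, List.length_cons, List.length_nil, ← ih]
      omega

/-- the zones which can be seen in the first `n` letters -/
def pre : ℕ → List (List α × List α) → List (List α × List α)
  | _, [] => []
  | n, z :: L => if z.1.length + T.n0 ≤ n then z :: pre (n - z.1.length) L else []

theorem pre_small {n : ℕ} (h : n < T.n0) (L : List (List α × List α)) : pre T n L = [] := by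
  cases L with
  | nil => rfl
  | cons z L => rw [pre, if_neg (by omega)]

theorem pre_mg (a : α) (n : ℕ) (L : List (List α × List α)) :
    pre T (n + 1) (mg [a] L) = mg [a] (pre T n L) := by
  cases L with
  | nil => rfl
  | cons z L =>
    show pre T (n + 1) (([a] ++ z.1, z.2) :: L) = _
    rw [pre, pre]
    dsimp only
    rw [List.length_append, List.length_singleton]
    by_cases h : z.1.length + T.n0 ≤ n
    · rw [if_pos (by omega), if_pos h, show n + 1 - (1 + z.1.length) = n - z.1.length by omega]
      rfl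
    · rw [if_neg (by omega), if_neg h]
      rfl

theorem pre_nw {n : ℕ} (h : T.n0 ≤ n) (s : List α) (L : List (List α × List α)) :
    pre T n (nw T s ++ L) = nw T s ++ pre T n L := by
  by_cases hB : T.B s
  · rw [nw_pos T hB, List.singleton_append, pre, if_pos (by simpa using h)]
    rfl
  · rw [nw_neg T hB]; rfl

theorem Z_take (w : List α) : ∀ n : ℕ, Z T (w.take n) = pre T n (Z T w) := by
  induction w with
  | nil => intro n; rw [List.take_nil]; rfl
  | cons a w ih =>
    intro n
    rcases n with _ | n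
    · rw [pre_small T T.pos]; rfl
    · rw [List.take_succ_cons, Z_cons, ih]
      by_cases h : T.n0 ≤ n + 1
      · rw [Z_cons, pre_nw T h, pre_mg]
        congr 1
        by_cases h2 : T.n0 ≤ (a :: w.take n).length
        · have h3 : a :: w = (a :: w.take n) ++ w.drop n := by
            rw [List.cons_append, List.take_append_drop]
          rw [h3, nw_app T h2]
        · rw [List.length_cons, List.length_take] at h2
          rw [List.take_of_length_le (by omega)]
      · rw [pre_small T (by omega : n < T.n0), pre_small T (by omega : n + 1 < T.n0)]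
        rw [nw_short T]
        · rfl
        · rw [List.length_cons, List.length_take]; omega

theorem pre_len {i : ℕ} (h0 : T.n0 ≤ i) {X : List α × List α} (hX : i ≤ X.1.length)
    (L : List (List α × List α)) : ∀ A, pre T (len A + i) (A ++ X :: L) = A := by
  intro A
  have := T.pos
  induction A with
  | nil =>
    show pre T (0 + i) (X :: L) = []
    rw [pre, if_neg (by omega)]
  | cons z A ih =>
    show pre T (z.1.length + len A + i) (z :: (A ++ X :: L)) = _
    rw [pre, if_pos (by omega), show z.1.length + len A + i - z.1.length = len A + i by omega, ih]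

theorem mg_split {u : List α} {L0 A L : List (List α × List α)} (h : mg u L0 = A ++ L)
    (hA : A ≠ []) : ∃ A', A' ≠ [] ∧ L0 = A' ++ L ∧ A = mg u A' := by
  rcases L0 with _ | ⟨z, l⟩
  · have h1 : ([] : List (List α × List α)) = A ++ L := h
    rw [eq_comm, List.append_eq_nil_iff] at h1
    exact absurd h1.1 hA
  · rcases A with _ | ⟨z', A⟩
    · exact absurd rfl hA
    · have h1 : (u ++ z.1, z.2) :: l = z' :: (A ++ L) := h
      rw [List.cons.injEq] at h1
      obtain ⟨rfl, rfl⟩ := h1
      exact ⟨z :: A, List.cons_ne_nil _ _, rfl, rfl⟩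

/-- the text around a zone which is not the first one -/
theorem Z_text (w : List α) : ∀ (A : List (List α × List α)) (X : List α × List α)
    (L : List (List α × List α)), Z T w = A ++ X :: L → A ≠ [] →
      T.B (w.drop (len A)) ∧ 0 < X.1.length ∧
        ∃ w', w.drop (len A) = X.1 ++ w' ∧ T.B w' ∧ X.2 = w'.take T.n0 := by
  induction w with
  | nil =>
    intro A X L h hA
    have h1 : ([] : List (List α × List α)) = A ++ X :: L := h
    rw [eq_comm, List.append_eq_nil_iff] at h1
    exact absurd h1.1 hA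
  | cons a w ih =>
    have key : ∀ (A : List (List α × List α)) (X : List α × List α)
        (L : List (List α × List α)), mg [a] (Z T w) = A ++ X :: L → A ≠ [] →
      T.B ((a :: w).drop (len A)) ∧ 0 < X.1.length ∧
        ∃ w', (a :: w).drop (len A) = X.1 ++ w' ∧ T.B w' ∧ X.2 = w'.take T.n0 := by
      intro A X L h hA
      obtain ⟨A', hA', h1, h2⟩ := mg_split h hA
      rw [h2, len_mg _ hA', List.length_singleton, add_comm]
      exact ih A' X L h1 hA'
    -- the first zone
    have first : ∀ (X : List α × List α) (L : List (List α × List α)),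
        Z T w = X :: L → ∃ w', w = X.1 ++ w' ∧ T.B w' ∧ X.2 = w'.take T.n0 := by
      clear ih key
      induction w with
      | nil => intro X L h; exact absurd h (by simp [Z])
      | cons b w ih =>
        intro X L h
        rw [Z_cons] at h
        by_cases hB : T.B (b :: w)
        · rw [nw_pos T hB, List.singleton_append, List.cons.injEq] at h
          refine ⟨b :: w, ?_, hB, ?_⟩
          · rw [← h.1]; rfl
          · rw [← h.1]
        · rw [nw_neg T hB, List.nil_append] at h
          rcases hZ : Z T w with _ | ⟨z0, l0⟩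
          · rw [hZ] at h
            exact absurd h (by simp [mg])
          · rw [hZ] at h
            have h3 : ([b] ++ z0.1, z0.2) :: l0 = X :: L := h
            rw [List.cons.injEq] at h3
            obtain ⟨w', h4, h5, h6⟩ := ih z0 l0 hZ
            refine ⟨w', ?_, h5, ?_⟩
            · rw [← h3.1]
              dsimp only
              rw [List.append_assoc, ← h4]
              rfl
            · rw [← h3.1]; exact h6
    intro A X L h hA
    rw [Z_cons] at h
    by_cases hB : T.B (a :: w)
    · rw [nw_pos T hB] at h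
      rcases A with _ | ⟨z', A⟩
      · exact absurd rfl hA
      · have h1 : (([] : List α), (a :: w).take T.n0) :: mg [a] (Z T w) =
          z' :: (A ++ X :: L) := h
        rw [List.cons.injEq] at h1
        obtain ⟨rfl, h2⟩ := h1
        have h3 : len ((([] : List α), (a :: w).take T.n0) :: A) = len A := Nat.zero_add _
        rw [h3]
        by_cases hA2 : A = []
        · subst hA2
          rcases hZ : Z T w with _ | ⟨z0, l0⟩
          · rw [hZ] at h2
            exact absurd h2 (by simp [mg])
          · rw [hZ] at h2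
            have h4 : ([a] ++ z0.1, z0.2) :: l0 = X :: L := h2
            rw [List.cons.injEq] at h4
            obtain ⟨w', h5, h6, h7⟩ := first z0 l0 hZ
            refine ⟨hB, ?_, w', ?_, h6, ?_⟩
            · rw [← h4.1]
              simp
            · rw [← h4.1]
              dsimp only
              rw [List.append_assoc, ← h5]
              rfl
            · rw [← h4.1]; exact h7
        · exact key A X L h2 hA2
    · rw [nw_neg T hB, List.nil_append] at h
      exact key A X L h hA

end zones

section sys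

variable {α κ ε V : Type} [AddCommGroup V] (M : α → V →+ V) (T : Bd α) (D : Dat κ ε V)
variable (c1 : List α → ε) (c2 : List α → κ) (La Ra : List α → Prop)

/-- the zone of a pair -/
def F (p : List α × List α) : Zn κ ε V := ⟨p.1.length, c2 (p.1 ++ p.2), c1 (p.1 ++ p.2), ah M p.1⟩

theorem actZ_nw (s : List α) (L : List (List α × List α)) :
    actZ ((nw T s ++ L).map (F M c1 c2)) = actZ (L.map (F M c1 c2)) := by
  by_cases hB : T.B s
  · rw [nw_pos T hB]; rfl
  · rw [nw_neg T hB]; rfl

theorem actZ_mg (u : List α) {L : List (List α × List α)} (h : L ≠ []) :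
    actZ ((mg u L).map (F M c1 c2)) = (actZ (L.map (F M c1 c2))).comp (ah M u) := by
  cases L with
  | nil => exact absurd rfl h
  | cons z l =>
    show (actZ (l.map (F M c1 c2))).comp (ah M (u ++ z.1)) = _
    rw [ah_append]
    rfl

theorem Z_act (w : List α) : ∀ x : V,
    act M w x = act M (tl T w) (actZ ((Z T w).map (F M c1 c2)) x) := by
  induction w with
  | nil => intro x; rfl
  | cons a w ih =>
    intro x
    rw [Z_cons, actZ_nw]
    by_cases h : Z T w = []
    · rw [h, tl_pos T h]; rfl
    · rw [tl_neg T h, actZ_mg M c1 c2 _ h]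
      exact ih (M a x)

/-- the value of a strand -/
noncomputable def El (w : List α) (x : V) : V :=
  act M (tl T w) (D.rz x [] ((Z T w).map (F M c1 c2)))

theorem El_act (w : List α) (x : V) :
    El M T D c1 c2 w x - El M T D c1 c2 w 0 = act M w x := by
  unfold El
  rw [← act_sub, D.rz_sub, sub_zero, List.nil_append, ← Z_act]

/-- the right party is ready -/
def PRc (z : List α) : Prop :=
  T.okR z ∧ ∃ (v s : List α) (l : List (List α × List α)) (q : κ), Z T z = (v, s) :: l ∧
    Ra (v ++ s) ∧ (∀ x', La x' → c2 (x' ++ (v ++ s)) = q) ∧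
      D.RA v.length q (l.map (F M c1 c2))

noncomputable def Ps (z : List α) : V :=
  act M (tl T z) (D.psi ((Z T z).tail.map (F M c1 c2)))

def PR (n : ℕ) (z : List α) : Prop :=
  ∃ d ≤ n, d ≤ z.length ∧ PRc M T D c1 c2 La Ra (z.take d)

def PL (y : V) (u : List α) : Prop :=
  T.okL u ∧ D.lr ((Z T u).map (F M c1 c2)) ≠ [] ∧ La (tl T u) ∧
    ∀ z, PRc M T D c1 c2 La Ra z →
      act M (tl T z) (D.rz y [] (D.lr ((Z T u).map (F M c1 c2)) ++
        (mg (tl T u) (Z T z)).map (F M c1 c2))) = Ps M T D c1 c2 z

noncomputable def lm (y : V) (u : List α) : V :=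
  act M (tl T u) (actZ (D.lr ((Z T u).map (F M c1 c2))) y)

theorem PRc_app {z : List α} (h : PRc M T D c1 c2 La Ra z) (z' : List α) :
    PRc M T D c1 c2 La Ra (z ++ z') := by
  obtain ⟨h1, v, s, l, q, h2, h3, h4, h5⟩ := h
  obtain ⟨L', hL'⟩ := Z_pre T z z'
  refine ⟨T.okR_app _ _ h1, v, s, l ++ L', q, ?_, h3, h4, ?_⟩
  · rw [hL', h2]; rfl
  · rw [List.map_append]
    exact D.RA_app h5 _

theorem PR_c {n : ℕ} {z : List α} (h : PR M T D c1 c2 La Ra n z) :
    PRc M T D c1 c2 La Ra z := by
  obtain ⟨d, -, -, h1⟩ := h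
  have := PRc_app M T D c1 c2 La Ra h1 (z.drop d)
  rwa [List.take_append_drop] at this

theorem _root_.Vale.Agent.P329.LookZ.Dat.lr_eq {D : Dat κ ε V} {R : List (Zn κ ε V)}
    (hR : D.st R) (h : D.lr R = []) (A : List (Zn κ ε V)) (hA : A ≠ []) : D.lr (A ++ R) = R := by
  induction A with
  | nil => exact absurd rfl hA
  | cons z A ih =>
    have h0 : A = [] ∨ A ≠ [] := Classical.em _
    rcases h0 with h0 | h0
    · subst h0
      rcases D.lr_cons z R with ⟨h1, h2⟩ | ⟨h1, h2, h3⟩ | ⟨h1, h2, h3⟩
      · exact absurd h h1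
      · exact h3
      · exact absurd hR h2
    · have h1 := ih h0
      rw [List.cons_append]
      rcases D.lr_cons z (A ++ R) with ⟨h1', h2⟩ | ⟨h1', h2, h3⟩ | ⟨h1', h2, h3⟩
      · rw [h2, h1]
      · exact absurd h1' (D.lr_ne hR A h0)
      · exact absurd h1' (D.lr_ne hR A h0)

theorem stab (u : List α) {k : List α} (h : D.lr ((Z T k).map (F M c1 c2)) ≠ []) :
    D.lr ((Z T (u ++ k)).map (F M c1 c2)) = D.lr ((Z T k).map (F M c1 c2)) ∧
      tl T (u ++ k) = tl T k := by
  have h0 : Z T k ≠ [] := by
    intro h1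
    rw [h1] at h
    exact h rfl
  obtain ⟨A, hA, hL, hs⟩ := D.lr_spec _ h
  rw [List.map_eq_append_iff] at hL
  obtain ⟨A0, R0, hZ, hA0, hR0⟩ := hL
  have hA0' : A0 ≠ [] := by
    rintro rfl
    exact hA hA0.symm
  obtain ⟨A', hA', hL'⟩ := Z_suf T u hZ hA0'
  refine ⟨?_, tl_app T u h0⟩
  rw [hL', List.map_append, hR0]
  refine Dat.lr_eq hs (D.lr_lr _) _ ?_
  intro h2
  exact hA' (List.map_eq_nil_iff.1 h2)

theorem PL_app {y : V} {k : List α} (h : PL M T D c1 c2 La Ra y k) (u : List α) :
    PL M T D c1 c2 La Ra y (u ++ k) := by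
  obtain ⟨h1, h2, h3, h4⟩ := h
  obtain ⟨e1, e2⟩ := stab M T D c1 c2 u h2
  refine ⟨T.okL_app _ _ h1, by rw [e1]; exact h2, by rw [e2]; exact h3, ?_⟩
  rw [e1, e2]
  exact h4

theorem lm_app {y : V} {k : List α} (h : PL M T D c1 c2 La Ra y k) (u : List α) :
    lm M T D c1 c2 y (u ++ k) = lm M T D c1 c2 y k := by
  obtain ⟨e1, e2⟩ := stab M T D c1 c2 u h.2.1
  unfold lm
  rw [e1, e2]

theorem junc_ok {u z : List α} (hu : T.okL u) (hz : T.okR z) :
    Z T (u ++ z) = Z T u ++ mg (tl T u) (Z T z) :=
  Z_junc T z u (T.junc u z hu hz)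

/-- a value at the last big mark -/
theorem El_left (u : List α) (x : V) (h : D.lr ((Z T u).map (F M c1 c2)) ≠ []) :
    ∃ y, (∀ Q, D.vy x [] ((Z T u).map (F M c1 c2)) Q =
      D.vy y [] (D.lr ((Z T u).map (F M c1 c2))) Q) ∧
      El M T D c1 c2 u x = lm M T D c1 c2 y u := by
  obtain ⟨y, hy⟩ := D.left_value x _ h
  refine ⟨y, hy, ?_⟩
  unfold El lm Dat.rz
  rw [hy [], D.lr_vy _ (D.lr_lr _)]
  rfl

theorem junc_val {y : V} {u z : List α} {x : V} (hL : PL M T D c1 c2 La Ra y u)
    (hR : PRc M T D c1 c2 La Ra z) (h : El M T D c1 c2 u x = lm M T D c1 c2 y u) :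
    El M T D c1 c2 (u ++ z) x = Ps M T D c1 c2 z := by
  obtain ⟨h1, h2, -, h3⟩ := hL
  obtain ⟨y1, hy1, he⟩ := El_left M T D c1 c2 u x h2
  have hzn : Z T z ≠ [] := by
    obtain ⟨-, v, s, l, q, h4, -⟩ := hR
    rw [h4]; exact List.cons_ne_nil _ _
  rw [he] at h
  unfold lm at h
  rw [← h3 z hR]
  unfold El
  rw [tl_app T u hzn, junc_ok T h1 hR.1, List.map_append, D.rz_append, hy1, ← D.rz_append,
    ← sub_eq_zero, ← act_sub, D.rz_sub, List.nil_append, actZ_append, actZ_mg M c1 c2 _ hzn]
  show act M (tl T z) (actZ ((Z T z).map (F M c1 c2)) (ah M (tl T u)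
    (actZ (D.lr ((Z T u).map (F M c1 c2))) (y1 - y)))) = 0
  rw [ah_apply, map_sub, act_sub, h, sub_self, map_zero, act_zero]

/-- good words -/
def GoodT (g : List α) : Prop :=
  ∃ A C D0 : List (List α × List α), Z T g = A ++ (C ++ D0) ∧
    D.lr (A.map (F M c1 c2)) ≠ [] ∧ C.length = D.K ∧
    (∀ C1 C2 : List (List α × List α), C = C1 ++ C2 → C1 ≠ [] → C2 ≠ [] →
      ¬ D.st ((C2 ++ D0).map (F M c1 c2))) ∧
    D.hsT (D0.map (F M c1 c2)) ∧
    ∀ (C1 : List (List α × List α)) (X : List α × List α) (C2 : List (List α × List α)),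
      C = C1 ++ X :: C2 → ∃ a, T.n0 ≤ a ∧ a + D.Lg ≤ X.1.length ∧ ∀ i, a ≤ i → i < a + D.Lg →
        T.okL (g.take (len (A ++ C1) + i)) ∧ T.okR (g.drop (len (A ++ C1) + i)) ∧
        La (X.1.take i) ∧ Ra (X.1.drop i ++ X.2) ∧
        (∀ y', Ra y' → c1 (X.1.take i ++ y') = c1 (X.1 ++ X.2)) ∧
        (∀ x', La x' → c2 (x' ++ (X.1.drop i ++ X.2)) = c2 (X.1 ++ X.2))

theorem cutIn {n : ℕ} {g : List α} (hg : GoodT M T D c1 c2 La Ra g) (hn : g.length ≤ n)
    (u : List α) (x : V) :
    ∃ (r : V) (c d : List α), c ++ d = g ∧ PL M T D c1 c2 La Ra r c ∧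
      PR M T D c1 c2 La Ra n d ∧ El M T D c1 c2 (u ++ c) x = lm M T D c1 c2 r c := by
  obtain ⟨A, C, D0, hZ, hA, hC, hnot, hD, hlong⟩ := hg
  have hA0 : A ≠ [] := by rintro rfl; exact hA rfl
  obtain ⟨Aw, hAw, hZu⟩ := Z_suf T u hZ hA0
  obtain ⟨C1', X', C2', hCs', hserve⟩ := D.serve x (Aw.map (F M c1 c2)) (C.map (F M c1 c2))
    (D0.map (F M c1 c2)) (by rw [List.length_map]; exact hC) (by
      intro E1 E2 hE h1 h2
      rw [List.map_eq_append_iff] at hE
      obtain ⟨G1, G2, hG, rfl, rfl⟩ := hE
      rw [← List.map_append]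
      refine hnot G1 G2 hG ?_ ?_
      · rintro rfl; exact h1 rfl
      · rintro rfl; exact h2 rfl) hD
  rw [List.map_eq_append_iff] at hCs'
  obtain ⟨C1, R2, hCs, rfl, hR2⟩ := hCs'
  rw [List.map_eq_cons_iff] at hR2
  obtain ⟨X, C2, rfl, rfl, rfl⟩ := hR2
  obtain ⟨a, ha0, haX, hok⟩ := hlong C1 X C2 hCs
  obtain ⟨i, hia, hib, hLA, hRA⟩ := hserve a haX
  have hiX : i ≤ X.1.length := by omega
  have hZg : Z T g = (A ++ C1) ++ X :: (C2 ++ D0) := by rw [hZ, hCs]; simp
  obtain ⟨hokL, hokR, hLa, hRa, hc1, hc2⟩ := hok i hia hib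
  obtain ⟨c, hc⟩ : ∃ c, c = g.take (len (A ++ C1) + i) := ⟨_, rfl⟩
  obtain ⟨d, hd⟩ : ∃ d, d = g.drop (len (A ++ C1) + i) := ⟨_, rfl⟩
  rw [← hc] at hokL
  rw [← hd] at hokR
  have hcd : c ++ d = g := by rw [hc, hd, List.take_append_drop]
  have hZc : Z T c = A ++ C1 := by
    rw [hc, Z_take, hZg, pre_len T (by omega) hiX]
  have hjg := junc_ok T hokL hokR
  rw [hcd, hZg, hZc, List.append_cancel_left_eq] at hjg
  obtain ⟨v, s, hzd, hX⟩ : ∃ v s, Z T d = (v, s) :: (C2 ++ D0) ∧ X = (tl T c ++ v, s) := by
    rcases hZd : Z T d with _ | ⟨⟨v, s⟩, l⟩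
    · rw [hZd] at hjg
      exact absurd hjg (List.cons_ne_nil _ _)
    · rw [hZd] at hjg
      have h1 : X :: (C2 ++ D0) = (tl T c ++ v, s) :: l := hjg
      rw [List.cons.injEq] at h1
      exact ⟨v, s, by rw [h1.2], h1.1⟩
  have hlen : (tl T c).length = i := by
    have h1 := tl_len T c
    have h2 := tl_len T g
    rw [hZc] at h1
    rw [hZg, len_append] at h2
    have h3 : len (X :: (C2 ++ D0)) = X.1.length + len (C2 ++ D0) := rfl
    have h4 : c.length = len (A ++ C1) + i := by
      rw [hc, List.length_take]; omega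
    omega
  have hX1 : X.1.take i = tl T c := by
    rw [hX]; dsimp only
    rw [← hlen, List.take_left]
  have hX2 : X.1.drop i = v := by
    rw [hX]; dsimp only
    rw [← hlen, List.drop_left]
  have hX3 : X.2 = s := by rw [hX]
  rw [hX1] at hLa hc1
  rw [hX2, hX3] at hRa hc2
  have hRd : PRc M T D c1 c2 La Ra d := by
    refine ⟨hokR, v, s, C2 ++ D0, c2 (X.1 ++ s), hzd, hRa, hc2, ?_⟩
    have e1 : v.length = X.1.length - i := by rw [← hX2, List.length_drop]
    rw [e1, List.map_append, ← hX3]
    exact hRA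
  have hlrc : D.lr ((Z T c).map (F M c1 c2)) ≠ [] := by
    rw [hZc, List.map_append]; exact D.lr_app_right hA _
  obtain ⟨e1, e2⟩ := stab M T D c1 c2 u hlrc
  obtain ⟨y, hy, hE⟩ := El_left M T D c1 c2 (u ++ c) x (by rw [e1]; exact hlrc)
  rw [e1] at hy
  have hZuc : Z T (u ++ c) = Aw ++ C1 := by
    have h1 := junc_ok T (T.okL_app u c hokL) hokR
    rw [e2, ← hjg, List.append_assoc, hcd, hZu, hCs] at h1
    have h2 : (Aw ++ C1) ++ X :: (C2 ++ D0) = Z T (u ++ c) ++ X :: (C2 ++ D0) := by
      rw [← h1]; simp
    exact (List.append_cancel_right h2).symm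
  rw [hZuc, List.map_append] at hy
  refine ⟨y, c, d, hcd, ⟨hokL, hlrc, hLa, ?_⟩, ?_, ?_⟩
  · rintro z ⟨hz1, v', s', l', q', hz2, hz3, hz4, hz5⟩
    unfold Ps
    rw [hz2]
    show act M (tl T z) (D.rz y [] (D.lr ((Z T c).map (F M c1 c2)) ++
      F M c1 c2 (tl T c ++ v', s') :: l'.map (F M c1 c2))) =
        act M (tl T z) (D.psi (l'.map (F M c1 c2)))
    have h3 : F M c1 c2 (tl T c ++ v', s') =
        (⟨i + v'.length, q', c1 (X.1 ++ X.2), ah M (tl T c ++ v')⟩ : Zn κ ε V) := by
      unfold F
      dsimp only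
      rw [List.append_assoc, hz4 _ hLa, hc1 _ hz3, List.length_append, hlen]
    rw [h3, D.sound' _ ?_ hz5]
    intro q l
    have h1 := hLA q l
    rw [hy] at h1
    exact h1
  · refine ⟨d.length, ?_, le_rfl, ?_⟩
    · have := congrArg List.length hcd
      rw [List.length_append] at this
      omega
    · rw [List.take_length]; exact hRd
  · rw [hE]
    unfold lm
    rw [e1, e2]

/-- the cut system -/
theorem sys {n : ℕ} (hn : 0 < n) : CS n (El M T D c1 c2) (PL M T D c1 c2 La Ra)
    (fun _ : V => PR M T D c1 c2 La Ra n) (lm M T D c1 c2) (fun _ : V => Ps M T D c1 c2)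
    {g | GoodT M T D c1 c2 La Ra g ∧ g.length ≤ n} where
  pos := hn
  plApp _ u k h := PL_app M T D c1 c2 La Ra h u
  lamApp _ u k h := lm_app M T D c1 c2 La Ra h u
  prApp _ k z h := by
    obtain ⟨d, h1, h2, h3⟩ := h
    refine ⟨d, h1, ?_, ?_⟩
    · rw [List.length_append]; omega
    · rw [List.take_append_of_le_length h2]; exact h3
  prLoc _ k z h hk := by
    obtain ⟨d, h1, h2, h3⟩ := h
    refine ⟨d, h1, by omega, ?_⟩
    rwa [List.take_append_of_le_length (by omega)] at h3
  junc _ _ u z x hL hR h := junc_val M T D c1 c2 La Ra hL (PR_c M T D c1 c2 La Ra hR) h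
  cutIn g hg u x := cutIn M T D c1 c2 La Ra hg.1 hg.2 u x

end sys

end Vale.Agent.P329.LookZ
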