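import Vale.Agent.P329.H616.LookZ.Text
import Vale.Agent.P329.H616.LookZ.Defs
import Vale.Agent.P329.Mark.Long

set_option linter.all false

/-!
Boundaries given by windows and clusters; good words; regular languages.
-/

namespace Vale.Agent.P329.LookZ

open Vale.Agent.P329 Vale.Agent.P329.Slow Vale.Agent.P329.Mark Vale.Agent.P329.Clock
open Vale.Agent.P329.TwoMarks (md big needs)

section win

variable {α : Type}

theorem mark_take {U : Set (List α)} {m n x : ℕ} {w : List α} (h : x + m ≤ n) :
    Mark U m (w.take n) x ↔ Mark U m w x := by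
  unfold Mark
  rw [List.drop_take, List.take_take, min_eq_left (by omega), List.length_take]
  constructor
  · rintro ⟨h1, h2⟩; exact ⟨by omega, h2⟩
  · rintro ⟨h1, h2⟩; exact ⟨by omega, h2⟩

theorem mark_drop {U : Set (List α)} {m n x : ℕ} {w : List α} (h : n ≤ w.length) :
    Mark U m (w.drop n) x ↔ Mark U m w (n + x) := by
  unfold Mark
  rw [List.drop_drop, List.length_drop]
  constructor
  · rintro ⟨h1, h2⟩; exact ⟨by omega, h2⟩
  · rintro ⟨h1, h2⟩; exact ⟨by omega, h2⟩

theorem mark_left {U : Set (List α)} {m x : ℕ} {s s' : List α} (h : x + m ≤ s.length) :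
    Mark U m (s ++ s') x ↔ Mark U m s x := by
  have h1 : s = (s ++ s').take s.length := (List.take_left).symm
  conv_rhs => rw [h1]
  exact (mark_take h).symm

theorem mark_right {U : Set (List α)} {m x : ℕ} {s s' : List α} :
    Mark U m (s ++ s') (s.length + x) ↔ Mark U m s' x := by
  have h1 := mark_drop (U := U) (m := m) (n := s.length) (x := x) (w := s ++ s')
    (by rw [List.length_append]; omega)
  rw [List.drop_left] at h1
  exact h1.symm

variable (U : Set (List α)) (m T : ℕ)

def okLw (u : List α) : Prop :=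
  ∃ p, p + (m + T) ≤ u.length ∧ ∀ x, p < x → ¬ Mark U m u x

def okRw (z : List α) : Prop := m ≤ 1 ∨ ∃ q, q + m ≤ T + 1 ∧ Mark U m z q

/-- the boundaries -/
def win (hm : 0 < m) : Bd α where
  B := Bdy U m T
  n0 := m + T
  pos := by omega
  short s h := h.1
  loc s s' h := by
    unfold Bdy
    rw [List.length_append, mark_left (by omega)]
    refine and_congr ⟨fun _ => h, fun _ => by omega⟩ (and_congr Iff.rfl ?_)
    refine forall_congr' fun p => forall_congr' fun _ => forall_congr' fun hp => ?_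
    rw [mark_left (by omega)]
  okL := okLw U m T
  okR := okRw U m T
  okL_app u k h := by
    obtain ⟨p, h1, h2⟩ := h
    refine ⟨u.length + p, by rw [List.length_append]; omega, fun x hx hM => ?_⟩
    have h3 : x = u.length + (x - u.length) := by omega
    rw [h3, mark_right] at hM
    exact h2 _ (by omega) hM
  okR_app k z h := by
    rcases h with h | ⟨q, h1, h2⟩
    · exact Or.inl h
    · exact Or.inr ⟨q, h1, (mark_left h2.1).2 h2⟩
  junc u z hu hz v hv hne := by
    obtain ⟨p, h1, h2⟩ := hu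
    by_cases hlen : m + T ≤ v.length
    · unfold Bdy
      rw [List.length_append, mark_left (by omega)]
      refine and_congr ⟨fun _ => hlen, fun _ => by omega⟩ (and_congr Iff.rfl ?_)
      refine forall_congr' fun p => forall_congr' fun _ => forall_congr' fun hp => ?_
      rw [mark_left (by omega)]
    · refine ⟨fun h => ?_, fun h => absurd h.1 hlen⟩
      exfalso
      obtain ⟨w, rfl⟩ := hv
      rw [List.length_append] at h1
      by_cases hm2 : m ≤ v.length
      · have h3 : Mark U m v 0 := (mark_left (by omega)).1 h.2.1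
        have h4 : Mark U m (w ++ v) (w.length + 0) := mark_right.2 h3
        exact h2 _ (by omega) h4
      · have hv0 : 0 < v.length := List.length_pos_iff.2 hne
        rcases hz with hz | ⟨q, h3, h4⟩
        · omega
        · exact h.2.2 (v.length + q) (by omega) (by omega) (mark_right.2 h4)

/-- join the parts of a zone -/
def jn (p : List α × List α) : List α := p.1 ++ p.2

theorem jn_mg (a : α) (L : List (List α × List α)) : (mg [a] L).map jn = bump a (L.map jn) := by
  cases L with
  | nil => rfl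
  | cons z l => rfl

theorem jn_Z (hm : 0 < m) (w : List α) : (Z (win U m T hm) w).map jn = zones U m T w := by
  induction w with
  | nil => rfl
  | cons a w ih =>
    rw [Z_cons, List.map_append, jn_mg, ih, zones]
    congr 1
    by_cases h : Bdy U m T (a :: w)
    · rw [if_pos h, nw_pos (win U m T hm) (by exact h)]
      rfl
    · rw [if_neg h, nw_neg (win U m T hm) (by exact h)]
      rfl

end win

theorem Z_snd {α : Type} (B : Bd α) (w : List α) : ∀ p ∈ Z B w, p.2.length = B.n0 := by
  induction w with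
  | nil => intro p hp; exact absurd hp (by simp [Z])
  | cons a w ih =>
    intro p hp
    rw [Z_cons, List.mem_append] at hp
    rcases hp with hp | hp
    · by_cases hB : B.B (a :: w)
      · rw [nw_pos B hB, List.mem_singleton] at hp
        rw [hp]
        dsimp only
        rw [List.length_take]
        exact min_eq_left (B.short _ hB)
      · rw [nw_neg B hB] at hp
        exact absurd hp List.not_mem_nil
    · rcases hZ : Z B w with _ | ⟨z, l⟩
      · rw [hZ] at hp
        exact absurd hp List.not_mem_nil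
      · rw [hZ] at hp
        have h1 : p ∈ ([a] ++ z.1, z.2) :: l := hp
        rw [List.mem_cons] at h1
        rcases h1 with h1 | h1
        · rw [h1]
          exact ih z (by rw [hZ]; exact List.mem_cons_self)
        · exact ih p (by rw [hZ]; exact List.mem_cons_of_mem _ h1)

section dat

theorem exists_dat (V : Type) [Finite V] [AddCommGroup V] : ∃ K : ℕ, 0 < K ∧
    ∀ (ι κ : Type) [Finite ι] [Finite κ] (P W : ℕ), 0 < P → 0 < W → ∃ N : ℕ, 0 < N ∧
      ∀ Φ : List (κ × ι × ZMod P) → Prop, ∃ D : Dat κ ι V, D.K = K ∧ D.Lg = N ∧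
        ∀ L : List (Zn κ ι V), D.st L ↔ Big W Φ (L.map fun z => (z.q, z.e, (z.j : ZMod P))) := by
  classical
  obtain ⟨M, hM, gy, gv, H⟩ := needs V
  have : NeZero M := ⟨hM.ne'⟩
  have hfV : Fintype V := Fintype.ofFinite V
  have hfH : Finite (V →+ V) := Finite.of_injective (fun f : V →+ V => (f : V → V))
    DFunLike.coe_injective
  have hfH' : Fintype (V →+ V) := Fintype.ofFinite _
  obtain ⟨K, hK⟩ : ∃ K, K = Fintype.card (ZMod M × (V →+ V) × V) := ⟨_, rfl⟩
  have hK0 : 0 < K := by rw [hK]; exact Fintype.card_pos_iff.2 ⟨(0, 0, 0)⟩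
  have : NeZero K := ⟨hK0.ne'⟩
  obtain ⟨e⟩ : Nonempty (ZMod K ≃ ZMod M × (V →+ V) × V) :=
    ⟨Fintype.equivOfCardEq (by rw [ZMod.card, hK])⟩
  choose c I J h1 h2 h3 using fun r : ZMod K => H (e r).1 (e r).2.1 (e r).2.2
  refine ⟨K, hK0, fun ι κ _ _ P W hP hW => ?_⟩
  have : NeZero P := ⟨hP.ne'⟩
  have hfκ : Fintype κ := Fintype.ofFinite κ
  have hfι : Fintype ι := Fintype.ofFinite ι
  obtain ⟨mu, hmu⟩ : ∃ mu, mu = Fintype.card (ZMod K × (κ × ι × ZMod P) ×
    (Fin W → Option (κ × ι × ZMod P))) := ⟨_, rfl⟩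
  let f := Fintype.equivFin (ZMod K × (κ × ι × ZMod P) × (Fin W → Option (κ × ι × ZMod P)))
  refine ⟨P * (big M mu + 1), Nat.mul_pos hP (Nat.succ_pos _), fun Φ => ?_⟩
  refine ⟨{
    P := P
    W := W
    K := K
    M := M
    mu := mu
    pP := hP
    pW := hW
    pK := hK0
    pM := hM
    Φ := fun f => ∃ x : List (κ × ι × ZMod P), x.length = W ∧
      (∀ i : Fin W, f i = x[(i : ℕ)]?) ∧ Φ x
    hΦ := ?_
    gy := gy
    gv := gv
    nd := e
    nd_surj := e.surjective
    c := c
    I := I
    J := J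
    ne := h1
    sound := h2
    complete := h3
    ix := fun r θ g => (f (r, θ, g) : ℕ) + 1
    ix_inj := ?_
    ix_pos := fun r θ g => Nat.succ_pos _
    ix_le := fun r θ g => by
      have h4 := (f (r, θ, g)).2
      have h5 : (f (r, θ, g) : ℕ) < mu := h4.trans_le hmu.ge
      exact h5 }, rfl, rfl, ?_⟩
  · rintro g ⟨x, hx, hg, -⟩ i h
    rw [hg i, List.getElem?_eq_none_iff] at h
    have := i.2
    omega
  · intro r θ g r' θ' g' h
    have h4 : f (r, θ, g) = f (r', θ', g') := Fin.ext (Nat.succ_injective h)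
    have h5 := f.injective h4
    simp only [Prod.mk.injEq] at h5
    exact h5
  · intro L
    unfold Big
    show (∃ x : List (κ × ι × ZMod P), x.length = W ∧
      (∀ i : Fin W, (L.map fun z => (z.q, z.e, (z.j : ZMod P)))[(i : ℕ)]? = x[(i : ℕ)]?) ∧
        Φ x) ↔ _
    obtain ⟨y, hy⟩ : ∃ y, y = L.map fun z => (z.q, z.e, (z.j : ZMod P)) := ⟨_, rfl⟩
    rw [← hy]
    constructor
    · rintro ⟨x, hx, hi, hΦ⟩
      have hle : W ≤ y.length := by
        by_contra hlt
        push Not at hlt
        have h4 := hi ⟨y.length, hlt⟩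
        dsimp only at h4
        rw [List.getElem?_eq_none le_rfl, eq_comm, List.getElem?_eq_none_iff] at h4
        omega
      refine ⟨hle, ?_⟩
      have h5 : y.take W = x := by
        apply List.ext_getElem?
        intro i
        by_cases h6 : i < W
        · rw [List.getElem?_take, if_pos h6]
          exact hi ⟨i, h6⟩
        · rw [List.getElem?_take, if_neg h6, List.getElem?_eq_none (by omega)]
      rw [h5]; exact hΦ
    · rintro ⟨hle, hΦ⟩
      refine ⟨y.take W, by rw [List.length_take]; omega, fun i => ?_, hΦ⟩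
      rw [List.getElem?_take, if_pos i.2]

end dat

section good

variable {α ι κ V : Type} [AddCommGroup V] (M : α → V →+ V)

theorem big_map {Θ Θ' : Type} (f : Θ → Θ') (W : ℕ) (Φ : List Θ' → Prop) (t : List Θ) :
    Big W (fun x => Φ (x.map f)) t ↔ Big W Φ (t.map f) := by
  unfold Big
  rw [List.length_map, ← List.map_take]

/-- the same types, named differently -/
def sh (P n : ℕ) (z : κ × ι × ZMod P) : ι × κ × ZMod P := (z.2.1, z.1, z.2.2 + (n : ZMod P))

theorem st_iff {m T : ℕ} {c₁ : List α → ι} {c₂ : List α → κ} {P W : ℕ}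
    {Φ : List (ι × κ × ZMod P) → Prop} {D : Dat κ ι V}
    (hst : ∀ L : List (Zn κ ι V), D.st L ↔
      Big W (fun x => Φ (x.map (sh P (m + T)))) (L.map fun z => (z.q, z.e, (z.j : ZMod P))))
    (L : List (List α × List α)) (hL : ∀ p ∈ L, p.2.length = m + T) :
    D.st (L.map (F M c₁ c₂)) ↔ Big W Φ (typ c₁ c₂ P (L.map jn)) := by
  rw [hst, big_map]
  have h1 : ((L.map (F M c₁ c₂)).map fun z => (z.q, z.e, (z.j : ZMod P))).map (sh P (m + T)) =
      typ c₁ c₂ P (L.map jn) := by
    unfold typ
    rw [List.map_map, List.map_map, List.map_map]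
    refine List.map_congr_left fun p hp => ?_
    show (c₁ (p.1 ++ p.2), c₂ (p.1 ++ p.2), (p.1.length : ZMod P) + ((m + T : ℕ) : ZMod P)) =
      (c₁ (p.1 ++ p.2), c₂ (p.1 ++ p.2), ((p.1 ++ p.2).length : ZMod P))
    rw [List.length_append, hL p hp, Nat.cast_add p.1.length]
  rw [h1]

theorem good_text {U : Set (List α)} {m T : ℕ} {c₁ : List α → ι} {c₂ : List α → κ}
    (hm : 0 < m) {P W : ℕ} {Φ : List (ι × κ × ZMod P) → Prop} {K N : ℕ} {D : Dat κ ι V}
    (hDK : D.K = K) (hDN : D.Lg = N)
    (hst : ∀ L : List (Zn κ ι V), D.st L ↔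
      Big W (fun x => Φ (x.map (sh P (m + T)))) (L.map fun z => (z.q, z.e, (z.j : ZMod P))))
    (hT : m = 1 ∨ N + m ≤ T) {g : List α}
    (hg : Good U m T c₁ c₂ P W Φ K N g) :
    GoodT M (win U m T hm) D c₁ c₂ (Lft U m T) (Rgt U m N) g := by
  classical
  obtain ⟨A1, A2, B, D1, D2, hZ, hA1, hA2, hD2, hB, hplain, hnot⟩ := hg
  rw [← jn_Z U m T hm, List.map_eq_append_iff] at hZ
  obtain ⟨A', R', hZ, hA', hR'⟩ := hZ
  rw [List.map_eq_append_iff] at hA' hR'
  obtain ⟨A1', A2', rfl, rfl, rfl⟩ := hA'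
  obtain ⟨B', R', rfl, rfl, hR'⟩ := hR'
  rw [List.map_eq_append_iff] at hR'
  obtain ⟨D1', D2', rfl, rfl, rfl⟩ := hR'
  have hsnd := Z_snd (win U m T hm) g
  rw [hZ] at hsnd
  have hA1' : A1' ≠ [] := by rintro rfl; exact hA1 rfl
  refine ⟨A1' ++ A2', B', D1' ++ D2', hZ, ?_, ?_, ?_, ?_, ?_⟩
  · rw [List.map_append]
    refine D.lr_ne ((st_iff M hst _ fun p hp => hsnd p (by simp [hp])).2 hA2) _ ?_
    intro h
    exact hA1' (List.map_eq_nil_iff.1 h)
  · rw [hDK, ← hB, List.length_map]
  · intro C1 C2 hC h1 h2 h3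
    rw [st_iff M hst _ fun p hp => hsnd p (by
      rw [hC]
      simp only [List.mem_append] at hp ⊢
      tauto)] at h3
    refine hnot (C1.map jn) (C2.map jn) (by rw [hC, List.map_append]) ?_ ?_ ?_
    · intro h4; exact h1 (List.map_eq_nil_iff.1 h4)
    · intro h4; exact h2 (List.map_eq_nil_iff.1 h4)
    · rwa [List.map_append, List.map_append] at h3
  · rw [List.map_append]
    exact D.hsT_app _ (D.hsT_of_st ((st_iff M hst _ fun p hp => hsnd p (by simp [hp])).2 hD2))
  · intro C1 X C2 hC
    obtain ⟨p, hp⟩ : ∃ p, p = len ((A1' ++ A2') ++ C1) := ⟨_, rfl⟩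
    have hZ1 : Z (win U m T hm) g = ((A1' ++ A2') ++ C1) ++ X :: (C2 ++ (D1' ++ D2')) := by
      rw [hZ, hC]; simp
    have hne : (A1' ++ A2') ++ C1 ≠ [] := by
      intro h
      rw [List.append_eq_nil_iff, List.append_eq_nil_iff] at h
      exact hA1' h.1.1
    obtain ⟨b1, hX, w', hw, b2, hX2⟩ := Z_text (win U m T hm) g _ _ _ hZ1 hne
    rw [← hp] at b1 hw
    have b1' : Bdy U m T (g.drop p) := b1
    have b2' : Bdy U m T w' := b2
    have hX2' : X.2 = w'.take (m + T) := hX2
    obtain ⟨hgap, hstab⟩ := hplain (jn X) (by rw [hC]; simp)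
    have hv : jn X = (g.drop p).take (X.1.length + (m + T)) := by
      rw [hw]
      unfold jn
      rw [hX2', List.take_length_add_append]
    have hpl : p + X.1.length + (m + T) ≤ g.length := by
      have h := congrArg List.length hw
      rw [List.length_append, List.length_drop] at h
      have h2 := b2'.1
      omega
    have mk : ∀ y, y + m ≤ X.1.length + (m + T) → (Mark U m (jn X) y ↔ Mark U m g (p + y)) := by
      intro y hy
      rw [hv, mark_take hy, mark_drop (by omega)]
    have m2 : Mark U m (jn X) X.1.length := by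
      unfold jn
      have h : Mark U m (X.1 ++ X.2) (X.1.length + 0) := by
        rw [mark_right, hX2', mark_take (by omega)]
        exact b2'.2.1
      rwa [Nat.add_zero] at h
    have hex : ∃ y, 0 < y ∧ Mark U m (jn X) y := ⟨X.1.length, hX, m2⟩
    obtain ⟨γ, hγ⟩ : ∃ γ, γ = Nat.find hex := ⟨_, rfl⟩
    obtain ⟨g1, g2⟩ := Nat.find_spec hex
    rw [← hγ] at g1 g2
    have g3 : γ ≤ X.1.length := by rw [hγ]; exact Nat.find_min' hex ⟨hX, m2⟩
    have g4 : ∀ y, 0 < y → y < γ → ¬ Mark U m (jn X) y := fun y h5 h6 h7 =>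
      Nat.find_min hex (by rw [← hγ]; exact h6) ⟨h5, h7⟩
    have g5 : N + T + m ≤ γ := by
      by_contra hlt
      push Not at hlt
      exact hgap γ g1 hlt g2
    refine ⟨γ - N, ?_, by omega, fun i hi1 hi2 => ?_⟩
    · show m + T ≤ γ - N
      omega
    · rw [hDN] at hi2
      have hL1 : jn X = X.1.take i ++ (X.1.drop i ++ X.2) := by
        rw [← List.append_assoc, List.take_append_drop]
        rfl
      have hL2 : X.1.take i = (g.drop p).take i := by
        rw [hw, List.take_append_of_le_length (by omega)]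
      have hL3 : X.1.drop i ++ X.2 = (jn X).drop i := by
        unfold jn
        rw [List.drop_append_of_le_length (by omega)]
      have hLft : Lft U m T (X.1.take i) := by
        refine ⟨by rw [List.length_take]; omega, ?_, fun q hq hM => ?_⟩
        · rw [hL2, mark_take (by omega)]
          exact b1'.2.1
        · have h5 := hM.1
          rw [List.length_take] at h5
          rw [hL2, mark_take (by omega), mark_drop (by omega), ← mk _ (by omega)] at hM
          exact g4 q hq (by omega) hM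
      have hRgt : Rgt U m N (X.1.drop i ++ X.2) := by
        refine ⟨γ - i, by omega, ?_⟩
        rw [hL3, mark_drop (by
          unfold jn
          rw [List.length_append]; omega)]
        rwa [show i + (γ - i) = γ by omega]
      obtain ⟨s1, s2⟩ := hstab _ _ hL1 hLft hRgt
      refine ⟨?_, ?_, hLft, hRgt, s1, s2⟩
      · rw [← hp]
        refine ⟨p, ?_, fun x hx hM => ?_⟩
        · rw [List.length_take]; omega
        · have h5 := hM.1
          rw [List.length_take] at h5
          have h6 : x + m ≤ p + i := by omega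
          rw [mark_take h6] at hM
          refine g4 (x - p) (by omega) (by omega) ?_
          rw [mk _ (by omega)]
          rwa [show p + (x - p) = x by omega]
      · rw [← hp]
        rcases hT with hT | hT
        · exact Or.inl (by omega)
        · refine Or.inr ⟨γ - i, by omega, ?_⟩
          rw [mark_drop (by omega), show p + i + (γ - i) = p + γ by omega, ← mk _ (by omega)]
          exact g2

/-- evaluation of linear actions -/
theorem cls_look (V : Type) [Finite V] [AddCommGroup V] : ∃ K : ℕ, 0 < K ∧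
    ∀ (ι κ : Type) [Finite ι] [Finite κ] (P W : ℕ), 0 < P → 0 < W → ∃ N : ℕ, 0 < N ∧
      ∀ (α : Type) [Finite α] (Q : Set (List α) → Prop), Cls Q →
      ∀ (M : α → V →+ V) (U : Set (List α)) (m T : ℕ) (c₁ : List α → ι) (c₂ : List α → κ),
        0 < m → (m = 1 ∨ N + m ≤ T) → ∀ (Φ : List (ι × κ × ZMod P) → Prop) (C : ℕ) (x : V)
        (H : Set V),
        Q {w : List α | Dom {g | Good U m T c₁ c₂ P W Φ K N g} C w ∧ act M w x ∈ H} := by
  obtain ⟨K, hK, H⟩ := exists_dat V
  refine ⟨K, hK, fun ι κ _ _ P W hP hW => ?_⟩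
  obtain ⟨N, hN, H⟩ := H ι κ P W hP hW
  refine ⟨N, hN, fun α _ Q hQ M U m T c₁ c₂ hm hT Φ C x S => ?_⟩
  obtain ⟨D, hDK, hDN, hst⟩ := H fun x => Φ (x.map (sh P (m + T)))
  have S1 := sys M (win U m T hm) D c₁ c₂ (Lft U m T) (Rgt U m N) (n := C + 1) (Nat.succ_pos _)
  have S' : CS (C + 1) (El M (win U m T hm) D c₁ c₂)
      (PL M (win U m T hm) D c₁ c₂ (Lft U m T) (Rgt U m N))
      (fun _ : V => PR M (win U m T hm) D c₁ c₂ (Lft U m T) (Rgt U m N) (C + 1))
      (lm M (win U m T hm) D c₁ c₂) (fun _ : V => Ps M (win U m T hm) D c₁ c₂)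
      {g | Good U m T c₁ c₂ P W Φ K N g ∧ g.length ≤ C} :=
    { S1 with
      cutIn := fun g hg => S1.cutIn g ⟨good_text M hm hDK hDN hst hT hg.1, by
        have := hg.2
        omega⟩ }
  have h1 := S'.cls_act hQ M (El_act M _ D c₁ c₂) C x S
  convert h1 using 1
  ext w
  have h2 : Dom {g | Good U m T c₁ c₂ P W Φ K N g} C w ↔
      Dom {g | Good U m T c₁ c₂ P W Φ K N g ∧ g.length ≤ C} C w := by
    constructor
    · intro h u hu hl
      obtain ⟨g, hg, hgu⟩ := h u hu hl
      exact ⟨g, ⟨hg, hl ▸ hgu.length_le⟩, hgu⟩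
    · intro h u hu hl
      obtain ⟨g, hg, hgu⟩ := h u hu hl
      exact ⟨g, hg.1, hgu⟩
  show _ ∧ _ ↔ _ ∧ _
  rw [h2]

/-- regular languages on words with big marks decided by look-ahead -/
theorem regular_look (n : ℕ) : ∃ K : ℕ, 0 < K ∧
    ∀ (ι κ : Type) [Finite ι] [Finite κ] (P W : ℕ), 0 < P → 0 < W → ∃ N : ℕ, 0 < N ∧
      ∀ (α : Type) [Finite α] (Q : Set (List α) → Prop), Cls Q → ∀ (A : DFA α (Fin n))
        (U : Set (List α)) (m T : ℕ) (c₁ : List α → ι) (c₂ : List α → κ), 0 < m →
        (m = 1 ∨ N + m ≤ T) → ∀ (Φ : List (ι × κ × ZMod P) → Prop) (C : ℕ),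
          Q {w : List α | w ∈ A.accepts ∧ Dom {g | Good U m T c₁ c₂ P W Φ K N g} C w} := by
  obtain ⟨K, hK, H⟩ := cls_look (Fin (Fintype.card (Fin n)) → ZMod 2)
  refine ⟨K, hK, fun ι κ _ _ P W hP hW => ?_⟩
  obtain ⟨N, hN, H⟩ := H ι κ P W hP hW
  refine ⟨N, hN, fun α _ Q hQ A U m T c₁ c₂ hm hT Φ C => ?_⟩
  exact dfa_transfer (Q := {w | Dom {g | Good U m T c₁ c₂ P W Φ K N g} C w}) (P := Q) A
    fun M x S => H α Q hQ M U m T c₁ c₂ hm hT Φ C x S

end good

end Vale.Agent.P329.LookZ
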