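import Vale.Agent.P329.H112.TwoMarks.Needs
import Mathlib.Tactic

set_option linter.all false

/-!
Lists of zones. A mark is big if the types of the next `W` zones satisfy `Φ`; the type of a zone
consists of two colours and its length modulo `P`.
-/

namespace Vale.Agent.P329.LookZ

open Vale.Agent.P329.TwoMarks

/-- a zone: its length, the colour known to the right party, the colour known to the left party,
its action -/
structure Zn (κ ε V : Type) [AddCommGroup V] where
  j : ℕ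
  q : κ
  e : ε
  g : V →+ V

section actz

variable {κ ε V : Type} [AddCommGroup V]

/-- the action of a list of zones, the first zone acts first -/
def actZ : List (Zn κ ε V) → (V →+ V)
  | [] => AddMonoidHom.id V
  | z :: l => (actZ l).comp z.g

theorem actZ_append (l1 l2 : List (Zn κ ε V)) : actZ (l1 ++ l2) = (actZ l2).comp (actZ l1) := by
  induction l1 with
  | nil => rfl
  | cons z l ih =>
    show (actZ (l ++ l2)).comp z.g = _
    rw [ih]
    rfl

end actz

/-- all data -/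
structure Dat (κ ε V : Type) [AddCommGroup V] where
  P : ℕ
  W : ℕ
  K : ℕ
  M : ℕ
  mu : ℕ
  pP : 0 < P
  pW : 0 < W
  pK : 0 < K
  pM : 0 < M
  Φ : (Fin W → Option (κ × ε × ZMod P)) → Prop
  hΦ : ∀ f, Φ f → ∀ i, f i ≠ none
  gy : ZMod M → V
  gv : ZMod M → V
  nd : ZMod K → ZMod M × (V →+ V) × V
  nd_surj : Function.Surjective nd
  c : ZMod K → (V →+ V) → ZMod M
  I : ZMod K → V → (V →+ V) → Set (ZMod M)
  J : ZMod K → (V →+ V) → Set (ZMod M)
  ne : ∀ r y A, (I r y A).Nonempty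
  sound : ∀ r y A g B, ∀ i ∈ I r y A, ∀ j ∈ J r B,
    gv (i + c r g + j) + (B.comp (g.comp A)) (y - gy (i + c r g + j)) =
      gv (nd r).1 + (nd r).2.1 ((nd r).2.2 - gy (nd r).1)
  complete : ∀ r A g B, B.comp (g.comp A) = (nd r).2.1 →
    ∃ i ∈ I r (nd r).2.2 A, ∃ j ∈ J r B, (nd r).1 = i + c r g + j
  ix : ZMod K → κ × ε × ZMod P → (Fin W → Option (κ × ε × ZMod P)) → ℕ
  ix_inj : ∀ r θ f r' θ' f', ix r θ f = ix r' θ' f' → r = r' ∧ θ = θ' ∧ f = f'
  ix_pos : ∀ r θ f, 0 < ix r θ f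
  ix_le : ∀ r θ f, ix r θ f ≤ mu

namespace Dat

variable {κ ε V : Type} [AddCommGroup V] (D : Dat κ ε V)

section ctx

/-- the type of a zone -/
def ty (z : Zn κ ε V) : κ × ε × ZMod D.P := (z.q, z.e, (z.j : ZMod D.P))

/-- the types of the first `W` zones -/
def cx (L : List (Zn κ ε V)) : Fin D.W → Option (κ × ε × ZMod D.P) := fun i => (L.map D.ty)[(i : ℕ)]?

theorem cx_cons {z z' : Zn κ ε V} {L L' : List (Zn κ ε V)} (h : D.ty z = D.ty z')
    (hL : D.cx L = D.cx L') : D.cx (z :: L) = D.cx (z' :: L') := by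
  funext i
  obtain ⟨i, hi⟩ := i
  cases i with
  | zero =>
    show (List.map D.ty (z :: L))[0]? = (List.map D.ty (z' :: L'))[0]?
    rw [List.map_cons, List.map_cons, List.getElem?_cons_zero, List.getElem?_cons_zero, h]
  | succ i =>
    show (List.map D.ty (z :: L))[i + 1]? = (List.map D.ty (z' :: L'))[i + 1]?
    rw [List.map_cons, List.map_cons, List.getElem?_cons_succ, List.getElem?_cons_succ]
    exact congrFun hL ⟨i, by omega⟩

theorem cx_app (A : List (Zn κ ε V)) {L L' : List (Zn κ ε V)} (hL : D.cx L = D.cx L') :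
    D.cx (A ++ L) = D.cx (A ++ L') := by
  induction A with
  | nil => exact hL
  | cons z A ih => exact D.cx_cons rfl ih

theorem cx_long {A : List (Zn κ ε V)} (h : D.W ≤ A.length) (Q : List (Zn κ ε V)) :
    D.cx (A ++ Q) = D.cx A := by
  funext i
  show (List.map D.ty (A ++ Q))[(i : ℕ)]? = (List.map D.ty A)[(i : ℕ)]?
  rw [List.map_append, List.getElem?_append_left]
  rw [List.length_map]
  exact i.2.trans_le h

/-- the mark before `L` is big -/
def st (L : List (Zn κ ε V)) : Prop := D.Φ (D.cx L)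

theorem st_len {L : List (Zn κ ε V)} (h : D.st L) : D.W ≤ L.length := by
  by_contra hlt
  push Not at hlt
  refine D.hΦ _ h ⟨L.length, hlt⟩ ?_
  show (List.map D.ty L)[L.length]? = none
  rw [List.getElem?_eq_none]
  rw [List.length_map]

theorem not_st_nil : ¬ D.st [] := fun h => by
  have h1 := D.st_len h
  have h2 := D.pW
  rw [List.length_nil] at h1
  omega

theorem cx_st {L : List (Zn κ ε V)} (h : D.st L) (Q : List (Zn κ ε V)) : D.cx (L ++ Q) = D.cx L :=
  D.cx_long (D.st_len h) Q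

theorem st_app {L : List (Zn κ ε V)} (h : D.st L) (Q : List (Zn κ ε V)) : D.st (L ++ Q) := by
  unfold st
  rw [D.cx_st h Q]
  exact h

theorem st_congr {L L' : List (Zn κ ε V)} (h : D.cx L = D.cx L') : D.st L ↔ D.st L' := by
  unfold st
  rw [h]

end ctx

section contr

open Classical in
/-- the class of a zone which is followed by `L`: the number of zones up to the next big mark -/
noncomputable def cl : List (Zn κ ε V) → ZMod D.K
  | [] => 0
  | z :: L => if D.st (z :: L) then 0 else cl L + 1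

theorem cl_st {L : List (Zn κ ε V)} (h : D.st L) : D.cl L = 0 := by
  cases L with
  | nil => rfl
  | cons z L => exact if_pos h

theorem cl_not {z : Zn κ ε V} {L : List (Zn κ ε V)} (h : ¬ D.st (z :: L)) :
    D.cl (z :: L) = D.cl L + 1 := if_neg h

theorem cl_app (A : List (Zn κ ε V)) {L L' : List (Zn κ ε V)} (h : D.cx L = D.cx L')
    (h' : D.cl L = D.cl L') : D.cl (A ++ L) = D.cl (A ++ L') := by
  induction A with
  | nil => exact h'
  | cons z A ih =>
    have h1 : D.st (z :: (A ++ L)) ↔ D.st (z :: (A ++ L')) := D.st_congr (D.cx_app (z :: A) h)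
    by_cases h2 : D.st (z :: (A ++ L))
    · show D.cl (z :: (A ++ L)) = D.cl (z :: (A ++ L'))
      rw [D.cl_st h2, D.cl_st (h1.1 h2)]
    · show D.cl (z :: (A ++ L)) = D.cl (z :: (A ++ L'))
      rw [D.cl_not h2, D.cl_not (fun h3 => h2 (h1.2 h3)), ih]

/-- a number modulo the modulus number `s`, read modulo `M` -/
def kp (s n : ℕ) : ZMod D.M := ((n % md D.M D.mu s : ℕ) : ZMod D.M)

/-- the contribution of a zone -/
def ct (r : ZMod D.K) (f : Fin D.W → Option (κ × ε × ZMod D.P)) (z : Zn κ ε V) : ZMod D.M :=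
  D.c r z.g + D.kp (D.ix r (D.ty z) f) (z.j / D.P) - ((z.j / D.P : ℕ) : ZMod D.M)

/-- the sum of the contributions of the zones of `b`, which is followed by `Q` -/
noncomputable def sl : List (Zn κ ε V) → List (Zn κ ε V) → ZMod D.M
  | [], _ => 0
  | z :: b, Q => D.ct (D.cl (b ++ Q)) (D.cx (b ++ Q)) z + sl b Q

theorem sl_nil (Q : List (Zn κ ε V)) : D.sl [] Q = 0 := rfl

theorem sl_cons (z : Zn κ ε V) (b Q : List (Zn κ ε V)) :
    D.sl (z :: b) Q = D.ct (D.cl (b ++ Q)) (D.cx (b ++ Q)) z + D.sl b Q := rfl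

theorem sl_append (A B Q : List (Zn κ ε V)) : D.sl (A ++ B) Q = D.sl A (B ++ Q) + D.sl B Q := by
  induction A with
  | nil => rw [List.nil_append, sl_nil, zero_add]
  | cons z A ih => rw [List.cons_append, sl_cons, sl_cons, ih, List.append_assoc, add_assoc]

theorem sl_congr (b : List (Zn κ ε V)) {Q Q' : List (Zn κ ε V)} (h : D.cx Q = D.cx Q')
    (h' : D.cl Q = D.cl Q') : D.sl b Q = D.sl b Q' := by
  induction b with
  | nil => rfl
  | cons z b ih => rw [sl_cons, sl_cons, ih, D.cx_app b h, D.cl_app b h h']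

end contr

section flow

/-- the flow of a block -/
noncomputable def Fb (B L : List (Zn κ ε V)) (y : V) : V :=
  D.gv (D.sl B L) + actZ B (y - D.gy (D.sl B L))

theorem Fb_congr (B : List (Zn κ ε V)) {L L' : List (Zn κ ε V)} (h : D.cx L = D.cx L')
    (hs : D.st L) (y : V) : D.Fb B L y = D.Fb B L' y := by
  unfold Fb
  rw [D.sl_congr B h (by rw [D.cl_st hs, D.cl_st ((D.st_congr h).1 hs)])]

theorem Fb_sub (B L : List (Zn κ ε V)) (y y' : V) :
    D.Fb B L y - D.Fb B L y' = actZ B (y - y') := by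
  unfold Fb
  rw [add_sub_add_left_eq_sub, ← map_sub, sub_sub_sub_cancel_right]

open Classical in
/-- process the zones `R`, which are followed by `Q`; `y` is the value at the beginning of the
current block, `b` are the zones of the current block up to now -/
noncomputable def vy : V → List (Zn κ ε V) → List (Zn κ ε V) → List (Zn κ ε V) → V × List (Zn κ ε V)
  | y, b, [], _ => (y, b)
  | y, b, z :: R, Q =>
    if D.st (R ++ Q) then vy (D.Fb (b ++ [z]) (R ++ Q) y) [] R Q else vy y (b ++ [z]) R Q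

theorem vy_nil (y : V) (b Q : List (Zn κ ε V)) : D.vy y b [] Q = (y, b) := by
  rw [vy]

theorem vy_pos {z : Zn κ ε V} {R Q : List (Zn κ ε V)} (h : D.st (R ++ Q)) (y : V)
    (b : List (Zn κ ε V)) : D.vy y b (z :: R) Q = D.vy (D.Fb (b ++ [z]) (R ++ Q) y) [] R Q := by
  rw [vy, if_pos h]

theorem vy_neg {z : Zn κ ε V} {R Q : List (Zn κ ε V)} (h : ¬ D.st (R ++ Q)) (y : V)
    (b : List (Zn κ ε V)) : D.vy y b (z :: R) Q = D.vy y (b ++ [z]) R Q := by
  rw [vy, if_neg h]

theorem vy_append (R1 R2 Q : List (Zn κ ε V)) : ∀ (y : V) (b : List (Zn κ ε V)),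
    D.vy y b (R1 ++ R2) Q =
      D.vy (D.vy y b R1 (R2 ++ Q)).1 (D.vy y b R1 (R2 ++ Q)).2 R2 Q := by
  induction R1 with
  | nil => intro y b; rw [vy_nil]; rfl
  | cons z R1 ih =>
    intro y b
    rw [List.cons_append]
    by_cases h : D.st (R1 ++ (R2 ++ Q))
    · rw [D.vy_pos (by rwa [List.append_assoc]), D.vy_pos h, ih, List.append_assoc]
    · rw [D.vy_neg (by rwa [List.append_assoc]), D.vy_neg h, ih]

theorem vy_congr (R : List (Zn κ ε V)) {Q Q' : List (Zn κ ε V)} (h : D.cx Q = D.cx Q') :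
    ∀ (y : V) (b : List (Zn κ ε V)), D.vy y b R Q = D.vy y b R Q' := by
  induction R with
  | nil => intro y b; rw [vy_nil, vy_nil]
  | cons z R ih =>
    intro y b
    have h1 := D.cx_app R h
    by_cases h2 : D.st (R ++ Q)
    · rw [D.vy_pos h2, D.vy_pos ((D.st_congr h1).1 h2), ih, D.Fb_congr _ h1 h2]
    · rw [D.vy_neg h2, D.vy_neg (fun h3 => h2 ((D.st_congr h1).2 h3)), ih]

theorem vy_sub (R Q : List (Zn κ ε V)) : ∀ (y y' : V) (b : List (Zn κ ε V)),
    actZ (D.vy y b R Q).2 (D.vy y b R Q).1 - actZ (D.vy y' b R Q).2 (D.vy y' b R Q).1 =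
      actZ (b ++ R) (y - y') := by
  induction R with
  | nil =>
    intro y y' b
    rw [vy_nil, vy_nil, List.append_nil]
    show actZ b y - actZ b y' = _
    rw [map_sub]
  | cons z R ih =>
    intro y y' b
    by_cases h : D.st (R ++ Q)
    · rw [D.vy_pos h, D.vy_pos h, ih, Fb_sub, List.nil_append,
        show b ++ z :: R = (b ++ [z]) ++ R by simp, actZ_append (b ++ [z]) R]
      rfl
    · rw [D.vy_neg h, D.vy_neg h, ih]
      simp

/-- the value at the end -/
noncomputable def rz (y : V) (b L : List (Zn κ ε V)) : V := actZ (D.vy y b L []).2 (D.vy y b L []).1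

theorem rz_sub (y y' : V) (b L : List (Zn κ ε V)) :
    D.rz y b L - D.rz y' b L = actZ (b ++ L) (y - y') := D.vy_sub L [] y y' b

theorem rz_append (y : V) (b R1 R2 : List (Zn κ ε V)) :
    D.rz y b (R1 ++ R2) = D.rz (D.vy y b R1 R2).1 (D.vy y b R1 R2).2 R2 := by
  unfold rz
  rw [vy_append, List.append_nil]

/-- no big mark between the zones of `b` and none at its end -/
theorem vy_not (b Q : List (Zn κ ε V)) (h : ∀ A1 A2 : List (Zn κ ε V), b = A1 ++ A2 → A1 ≠ [] →
    ¬ D.st (A2 ++ Q)) : ∀ (y : V) (b0 : List (Zn κ ε V)), D.vy y b0 b Q = (y, b0 ++ b) := by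
  induction b with
  | nil => intro y b0; rw [vy_nil, List.append_nil]
  | cons z b ih =>
    intro y b0
    rw [D.vy_neg (h [z] b rfl (by simp)), ih]
    · simp
    · intro A1 A2 hA hne
      exact h (z :: A1) A2 (by rw [hA]; rfl) (by simp)

/-- a big mark at the end of `R` resets the block -/
theorem vy_reset {Q : List (Zn κ ε V)} (hQ : D.st Q) (R : List (Zn κ ε V)) (hR : R ≠ []) :
    ∀ (y : V) (b : List (Zn κ ε V)), (D.vy y b R Q).2 = [] := by
  induction R with
  | nil => exact absurd rfl hR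
  | cons z R ih =>
    intro y b
    rcases R with _ | ⟨z', R⟩
    · rw [D.vy_pos (by exact hQ), vy_nil]
    · by_cases h : D.st ((z' :: R) ++ Q)
      · rw [D.vy_pos h]; exact ih (by simp) _ _
      · rw [D.vy_neg h]; exact ih (by simp) _ _

end flow

section right

open Classical in
/-- the zones before the first big mark -/
noncomputable def fz : List (Zn κ ε V) → List (Zn κ ε V)
  | [] => []
  | z :: L => if D.st (z :: L) then [] else z :: fz L

open Classical in
/-- the zones after the first big mark -/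
noncomputable def fr : List (Zn κ ε V) → List (Zn κ ε V)
  | [] => []
  | z :: L => if D.st (z :: L) then z :: L else fr L

theorem fz_st {L : List (Zn κ ε V)} (h : D.st L) : D.fz L = [] := by
  cases L with
  | nil => rfl
  | cons z L => exact if_pos h

theorem fr_st {L : List (Zn κ ε V)} (h : D.st L) : D.fr L = L := by
  cases L with
  | nil => rfl
  | cons z L => exact if_pos h

theorem fz_not {z : Zn κ ε V} {L : List (Zn κ ε V)} (h : ¬ D.st (z :: L)) :
    D.fz (z :: L) = z :: D.fz L := if_neg h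

theorem fr_not {z : Zn κ ε V} {L : List (Zn κ ε V)} (h : ¬ D.st (z :: L)) :
    D.fr (z :: L) = D.fr L := if_neg h

theorem fz_fr (L : List (Zn κ ε V)) : D.fz L ++ D.fr L = L := by
  induction L with
  | nil => rfl
  | cons z L ih =>
    by_cases h : D.st (z :: L)
    · rw [D.fz_st h, D.fr_st h]; rfl
    · rw [D.fz_not h, D.fr_not h, List.cons_append, ih]

/-- there is a big mark -/
def hsT (L : List (Zn κ ε V)) : Prop := D.st (D.fr L)

theorem hsT_cons {z : Zn κ ε V} {L : List (Zn κ ε V)} (h : D.hsT L) : D.hsT (z :: L) := by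
  unfold hsT
  by_cases h1 : D.st (z :: L)
  · rw [D.fr_st h1]; exact h1
  · rw [D.fr_not h1]; exact h

theorem hsT_app (A : List (Zn κ ε V)) {L : List (Zn κ ε V)} (h : D.hsT L) : D.hsT (A ++ L) := by
  induction A with
  | nil => exact h
  | cons z A ih => exact D.hsT_cons ih

theorem hsT_of_st {L : List (Zn κ ε V)} (h : D.st L) : D.hsT L := by
  unfold hsT
  rw [D.fr_st h]; exact h

/-- everything which the right party sees is decided -/
theorem ext_right {L : List (Zn κ ε V)} (h : D.hsT L) (L' : List (Zn κ ε V)) :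
    D.hsT (L ++ L') ∧ D.fz (L ++ L') = D.fz L ∧ D.fr (L ++ L') = D.fr L ++ L' ∧
      D.cl (L ++ L') = D.cl L ∧ D.cx (L ++ L') = D.cx L := by
  induction L with
  | nil => exact absurd h D.not_st_nil
  | cons z L ih =>
    by_cases h1 : D.st (z :: L)
    · have h2 : D.st (z :: (L ++ L')) := D.st_app h1 L'
      refine ⟨D.hsT_of_st h2, ?_, ?_, ?_, D.cx_st h1 L'⟩
      · rw [D.fz_st h1]; exact D.fz_st h2
      · rw [D.fr_st h1]; exact D.fr_st h2
      · rw [D.cl_st h1]; exact D.cl_st h2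
    · have h0 : D.hsT L := by
        have : D.fr (z :: L) = D.fr L := D.fr_not h1
        unfold hsT at h ⊢
        rwa [this] at h
      obtain ⟨i1, i2, i3, i4, i5⟩ := ih h0
      have h3 : D.cx (z :: (L ++ L')) = D.cx (z :: L) := D.cx_cons rfl i5
      have h2 : ¬ D.st (z :: (L ++ L')) := fun h4 => h1 ((D.st_congr h3).1 h4)
      refine ⟨D.hsT_cons i1, ?_, ?_, ?_, h3⟩
      · rw [D.fz_not h1, ← i2]; exact D.fz_not h2
      · rw [D.fr_not h1, ← i3]; exact D.fr_not h2
      · rw [D.cl_not h1, ← i4]; exact D.cl_not h2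

/-- the flow up to the first big mark -/
theorem vy_first (l : List (Zn κ ε V)) (h : D.hsT l) : ∀ (X : Zn κ ε V) (y : V) (b : List (Zn κ ε V)),
    D.vy y b (X :: l) [] = D.vy (D.Fb (b ++ X :: D.fz l) (D.fr l) y) [] (D.fr l) [] := by
  induction l with
  | nil => exact absurd h D.not_st_nil
  | cons z L ih =>
    intro X y b
    by_cases h1 : D.st (z :: L)
    · rw [D.vy_pos (by rwa [List.append_nil]), D.fz_st h1, D.fr_st h1, List.append_nil]
    · have h0 : D.hsT L := by
        have : D.fr (z :: L) = D.fr L := D.fr_not h1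
        unfold hsT at h ⊢
        rwa [this] at h
      rw [D.vy_neg (by rwa [List.append_nil]), ih h0, D.fz_not h1, D.fr_not h1]
      simp

/-- the label of a class -/
def lb (r : ZMod D.K) : V := D.gv (D.nd r).1 + (D.nd r).2.1 ((D.nd r).2.2 - D.gy (D.nd r).1)

/-- the value at the end, as seen by the right party -/
noncomputable def psi (l : List (Zn κ ε V)) : V := D.rz (D.lb (D.cl l)) [] (D.fr l)

/-- the right party is ready -/
def RA (j : ℕ) (q : κ) (l : List (Zn κ ε V)) : Prop :=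
  D.hsT l ∧ D.P ∣ j ∧
    (∀ θ : ε × ZMod D.P, md D.M D.mu (D.ix (D.cl l) (q, θ) (D.cx l)) ∣ j / D.P) ∧
    D.sl (D.fz l) (D.fr l) - ((j / D.P : ℕ) : ZMod D.M) ∈ D.J (D.cl l) (actZ (D.fz l))

/-- the left party is ready -/
def LA (y : V) (R : List (Zn κ ε V)) (i : ℕ) (e : ε) : Prop :=
  ∀ (q : κ) (l : List (Zn κ ε V)),
    D.sl (D.vy y [] R (⟨i, q, e, 0⟩ :: l)).2 (⟨i, q, e, 0⟩ :: l) +
        D.kp (D.ix (D.cl l) (q, e, (i : ZMod D.P)) (D.cx l)) (i / D.P) -
          ((i / D.P : ℕ) : ZMod D.M) ∈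
      D.I (D.cl l) (D.vy y [] R (⟨i, q, e, 0⟩ :: l)).1 (actZ (D.vy y [] R (⟨i, q, e, 0⟩ :: l)).2)

theorem RA_app {j : ℕ} {q : κ} {l : List (Zn κ ε V)} (h : D.RA j q l) (l' : List (Zn κ ε V)) :
    D.RA j q (l ++ l') := by
  obtain ⟨h1, h2, h3, h4⟩ := h
  obtain ⟨i1, i2, i3, i4, i5⟩ := D.ext_right h1 l'
  refine ⟨i1, h2, fun θ => by rw [i4, i5]; exact h3 θ, ?_⟩
  rw [i2, i3, i4, D.sl_congr (D.fz l) (D.cx_st h1 l') (by
    rw [D.cl_st (D.st_app h1 l'), D.cl_st h1])]
  exact h4

theorem cx_cl_mark {i i' : ℕ} {q : κ} {e : ε} {g g' : V →+ V} (l : List (Zn κ ε V))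
    (h : (i : ZMod D.P) = (i' : ZMod D.P)) :
    D.cx ((⟨i, q, e, g⟩ : Zn κ ε V) :: l) = D.cx (⟨i', q, e, g'⟩ :: l) ∧
      D.cl ((⟨i, q, e, g⟩ : Zn κ ε V) :: l) = D.cl (⟨i', q, e, g'⟩ :: l) := by
  have h0 : D.ty (⟨i, q, e, g⟩ : Zn κ ε V) = D.ty ⟨i', q, e, g'⟩ := by
    unfold ty
    rw [h]
  have h1 : D.cx ((⟨i, q, e, g⟩ : Zn κ ε V) :: l) = D.cx (⟨i', q, e, g'⟩ :: l) :=
    D.cx_cons h0 rfl
  refine ⟨h1, ?_⟩
  by_cases h2 : D.st ((⟨i, q, e, g⟩ : Zn κ ε V) :: l)
  · rw [D.cl_st h2, D.cl_st ((D.st_congr h1).1 h2)]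
  · rw [D.cl_not h2, D.cl_not (fun h3 => h2 ((D.st_congr h1).2 h3))]

theorem kp_add {s i j : ℕ} (h : md D.M D.mu s ∣ j) : D.kp s (i + j) = D.kp s i := by
  obtain ⟨t, rfl⟩ := h
  unfold kp
  rw [Nat.add_mul_mod_self_left]

/-- if both parties are ready, the value is right -/
theorem sound' {y : V} {R l : List (Zn κ ε V)} {i j : ℕ} {q : κ} {e : ε} (g : V →+ V)
    (hL : D.LA y R i e) (hR : D.RA j q l) : D.rz y [] (R ++ ⟨i + j, q, e, g⟩ :: l) = D.psi l := by
  obtain ⟨h1, h2, h3, h4⟩ := hR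
  have hL' := hL q l
  have hij : ((i + j : ℕ) : ZMod D.P) = (i : ZMod D.P) := by
    rw [Nat.cast_add, (ZMod.natCast_eq_zero_iff j D.P).2 h2, add_zero]
  obtain ⟨e1, e2⟩ := D.cx_cl_mark (q := q) (g := g) (g' := 0) l hij
  rw [D.rz_append, D.vy_congr R e1]
  rcases hp : D.vy y [] R (⟨i, q, e, 0⟩ :: l) with ⟨y', b'⟩
  rw [hp] at hL'
  dsimp only at hL' ⊢
  rw [← D.sl_congr b' e1 e2] at hL'
  unfold rz
  rw [D.vy_first l h1]
  have h5 : D.Fb (b' ++ ⟨i + j, q, e, g⟩ :: D.fz l) (D.fr l) y' = D.lb (D.cl l) := by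
    have h6 := D.sound (D.cl l) y' (actZ b') g (actZ (D.fz l)) _ hL' _ h4
    have hdiv : (i + j) / D.P = i / D.P + j / D.P := Nat.add_div_of_dvd_left h2
    have h7 : D.sl (b' ++ ⟨i + j, q, e, g⟩ :: D.fz l) (D.fr l) =
        D.sl b' (⟨i + j, q, e, g⟩ :: l) +
          D.kp (D.ix (D.cl l) (q, e, (i : ZMod D.P)) (D.cx l)) (i / D.P) -
            ((i / D.P : ℕ) : ZMod D.M) + D.c (D.cl l) g +
          (D.sl (D.fz l) (D.fr l) - ((j / D.P : ℕ) : ZMod D.M)) := by
      rw [D.sl_append, D.sl_cons, List.cons_append, D.fz_fr]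
      unfold ct ty
      dsimp only
      rw [hij, hdiv, D.kp_add (h3 _), Nat.cast_add]
      ring
    unfold Fb
    rw [h7, actZ_append]
    exact h6
  rw [h5]
  rfl

end right

end Dat

end Vale.Agent.P329.LookZ
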